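import Mathlib

namespace Vale.Agent.Lib.P002

open Polynomial
open scoped Polynomial.Bivariate

/-- Expansion of the evaluation of a bivariate polynomial as a double sum. -/
lemma evalEval_eq_sum (P : ℂ[X][Y]) (x y : ℂ) :
    P.evalEval x y = ∑ j ∈ P.support, ∑ i ∈ (P.coeff j).support, (P.coeff j).coeff i * x ^ i * y ^ j := by
  have h1 : P.eval (C y) = ∑ j ∈ P.support, P.coeff j * (C y) ^ j := by
    rw [Polynomial.eval_eq_sum, Polynomial.sum]
  rw [Polynomial.evalEval, h1, Polynomial.eval_finsetSum]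
  refine Finset.sum_congr rfl fun j _ => ?_
  rw [Polynomial.eval_mul, Polynomial.eval_pow, Polynomial.eval_C, Polynomial.eval_eq_sum,
    Polynomial.sum, Finset.sum_mul]

/-- A bivariate polynomial vanishing on the product of two infinite sets vanishes. -/
lemma eq_zero_of_vanish_grid (P : ℂ[X][Y]) (S T : Set ℂ) (hS : S.Infinite) (hT : T.Infinite)
    (h : ∀ x ∈ S, ∀ y ∈ T, P.evalEval x y = 0) : P = 0 := by
  ext j : 1
  rw [Polynomial.coeff_zero]
  apply Polynomial.eq_zero_of_infinite_isRoot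
  refine hS.mono fun x hx => ?_
  have hq : (P.map (Polynomial.evalRingHom x)) = 0 := by
    apply Polynomial.eq_zero_of_infinite_isRoot
    refine hT.mono fun y hy => ?_
    have := h x hx y hy
    rw [← Polynomial.map_evalRingHom_eval] at this
    exact this
  have := congrArg (fun p => p.coeff j) hq
  simpa [Polynomial.coeff_map, Polynomial.IsRoot.def] using this

/-- Leading term argument: if `x = Xp(t)/t^(k+3)`, `y = Yp(t)/t^(k+2)` with `Xp(0), Yp(0)` nonzero
then no nonzero bivariate polynomial of low `x`-degree vanishes along the curve. -/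
lemma eq_zero_of_vanish_curve (P : ℂ[X][Y]) (k : ℕ)
    (hk : ∀ j, (P.coeff j).natDegree < k + 2) (Xp Yp : ℂ[X])
    (hX0 : Xp.eval 0 ≠ 0) (hY0 : Yp.eval 0 ≠ 0)
    (h : ∀ t : ℂ, t ≠ 0 → P.evalEval (Xp.eval t / t ^ (k + 3)) (Yp.eval t / t ^ (k + 2)) = 0) :
    P = 0 := by
  classical
  by_contra hP
  -- the support as pairs (j, i)
  let S : Finset (ℕ × ℕ) := P.support.biUnion fun j => (P.coeff j).support.image fun i => (j, i)
  have hSmem : ∀ j i, (j, i) ∈ S ↔ (P.coeff j).coeff i ≠ 0 := by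
    intro j i
    simp only [S, Finset.mem_biUnion, Finset.mem_image, Prod.mk.injEq]
    constructor
    · rintro ⟨j', _, i', hi', rfl, rfl⟩
      exact Polynomial.mem_support_iff.mp hi'
    · intro hne
      refine ⟨j, ?_, i, Polynomial.mem_support_iff.mpr hne, rfl, rfl⟩
      rw [Polynomial.mem_support_iff]
      intro h0
      rw [h0] at hne
      simp at hne
  have hSne : S.Nonempty := by
    obtain ⟨j, hj⟩ : ∃ j, P.coeff j ≠ 0 := by
      by_contra hcon
      push Not at hcon
      exact hP (Polynomial.ext fun j => by simpa using hcon j)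
    obtain ⟨i, hi⟩ : ∃ i, (P.coeff j).coeff i ≠ 0 := by
      by_contra hcon
      push Not at hcon
      exact hj (Polynomial.ext fun i => by simpa using hcon i)
    exact ⟨(j, i), (hSmem j i).mpr hi⟩
  let w : ℕ × ℕ → ℕ := fun p => (k + 3) * p.2 + (k + 2) * p.1
  let D := S.sup w
  let Q : ℂ[X] := ∑ p ∈ S, C ((P.coeff p.1).coeff p.2) * Xp ^ p.2 * Yp ^ p.1 * X ^ (D - w p)
  have hwD : ∀ p ∈ S, w p ≤ D := fun p hp => Finset.le_sup hp
  have hsum : ∀ x y : ℂ, P.evalEval x y = ∑ p ∈ S, (P.coeff p.1).coeff p.2 * x ^ p.2 * y ^ p.1 := by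
    intro x y
    rw [evalEval_eq_sum]
    simp only [S]
    rw [Finset.sum_biUnion]
    · refine Finset.sum_congr rfl fun j _ => ?_
      rw [Finset.sum_image]
      intro a _ b _ hab
      exact (Prod.mk.inj hab).2
    · intro j _ j' _ hjj'
      simp only [Function.onFun]
      rw [Finset.disjoint_left]
      intro p hp hp'
      simp only [Finset.mem_image] at hp hp'
      obtain ⟨i, _, rfl⟩ := hp
      obtain ⟨i', _, hi'⟩ := hp'
      exact hjj' (Prod.mk.inj hi').1.symm
  have hQeval : ∀ t : ℂ, t ≠ 0 → Q.eval t = 0 := by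
    intro t ht
    have h0 := h t ht
    rw [hsum] at h0
    have : Q.eval t = t ^ D * ∑ p ∈ S, (P.coeff p.1).coeff p.2 * (Xp.eval t / t ^ (k + 3)) ^ p.2 *
        (Yp.eval t / t ^ (k + 2)) ^ p.1 := by
      simp only [Q, Polynomial.eval_finsetSum, Finset.mul_sum]
      refine Finset.sum_congr rfl fun p hp => ?_
      simp only [Polynomial.eval_mul, Polynomial.eval_C, Polynomial.eval_pow, Polynomial.eval_X]
      have hle := hwD p hp
      have hD : D = (D - w p) + w p := by omega
      have ht' : t ^ (D - w p) * t ^ (w p) = t ^ D := by rw [← pow_add, ← hD]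
      rw [← ht']
      simp only [w, div_pow]
      field_simp
      ring
    rw [this, h0, mul_zero]
  have hQ0 : Q = 0 := by
    apply Polynomial.eq_zero_of_infinite_isRoot
    refine Set.Infinite.mono (s := {0}ᶜ) ?_ (Set.Finite.infinite_compl (Set.finite_singleton 0))
    intro t ht
    exact hQeval t ht
  obtain ⟨p0, hp0, hp0D⟩ := Finset.exists_mem_eq_sup S hSne w
  have huniq : ∀ p ∈ S, w p = D → p = p0 := by
    intro p hp hpD
    have hlt1 : p.2 < k + 2 := by
      have hne := (hSmem p.1 p.2).mp (by simpa using hp)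
      have : p.2 ≤ (P.coeff p.1).natDegree := Polynomial.le_natDegree_of_ne_zero hne
      have := hk p.1
      omega
    have hlt2 : p0.2 < k + 2 := by
      have hne := (hSmem p0.1 p0.2).mp (by simpa using hp0)
      have : p0.2 ≤ (P.coeff p0.1).natDegree := Polynomial.le_natDegree_of_ne_zero hne
      have := hk p0.1
      omega
    have heq : (k + 3) * p.2 + (k + 2) * p.1 = (k + 3) * p0.2 + (k + 2) * p0.1 := by
      have h1 : w p = w p0 := by rw [hpD]; exact hp0D
      simpa [w] using h1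
    have heq2 : (k + 2) * (p.1 + p.2) + p.2 = (k + 2) * (p0.1 + p0.2) + p0.2 := by
      nlinarith
    have h2 : p.2 = p0.2 := by
      have := congrArg (· % (k + 2)) heq2
      simp only [Nat.mul_add_mod, Nat.mod_eq_of_lt hlt1, Nat.mod_eq_of_lt hlt2] at this
      exact this
    have h1 : p.1 = p0.1 := by
      rw [h2] at heq2
      have h3 : (k + 2) * (p.1 + p0.2) = (k + 2) * (p0.1 + p0.2) := by omega
      have h4 := Nat.eq_of_mul_eq_mul_left (by omega) h3
      omega
    exact Prod.ext h1 h2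
  have hval0 : Q.eval 0 = (P.coeff p0.1).coeff p0.2 * (Xp.eval 0) ^ p0.2 * (Yp.eval 0) ^ p0.1 := by
    simp only [Q, Polynomial.eval_finsetSum, Polynomial.eval_mul, Polynomial.eval_C,
      Polynomial.eval_pow, Polynomial.eval_X]
    rw [Finset.sum_eq_single p0]
    · have : D - w p0 = 0 := by
        show S.sup w - w p0 = 0
        rw [hp0D]; omega
      rw [this]; simp
    · intro p hp hne
      have hlt : w p < D := lt_of_le_of_ne (hwD p hp) fun he => hne (huniq p hp he)
      have : D - w p ≠ 0 := by omega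
      rw [zero_pow this, mul_zero]
    · intro hnot; exact absurd hp0 hnot
  have hne0 : (P.coeff p0.1).coeff p0.2 ≠ 0 := (hSmem p0.1 p0.2).mp (by simpa using hp0)
  have : Q.eval 0 ≠ 0 := by
    rw [hval0]
    exact mul_ne_zero (mul_ne_zero hne0 (pow_ne_zero _ hX0)) (pow_ne_zero _ hY0)
  rw [hQ0] at this
  simp at this

/-- Functions of two nonzero variables which are Laurent polynomials. -/
def IsLaurent (φ : ℂ → ℂ → ℂ) : Prop :=
  ∃ (P : ℂ[X][Y]) (m n : ℕ), ∀ u v : ℂ, u ≠ 0 → v ≠ 0 → φ u v * u ^ m * v ^ n = P.evalEval u v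

lemma IsLaurent.const (c : ℂ) : IsLaurent fun _ _ => c :=
  ⟨C (C c), 0, 0, fun u v _ _ => by simp⟩

lemma IsLaurent.fst : IsLaurent fun u _ => u :=
  ⟨C X, 0, 0, fun u v _ _ => by simp [Polynomial.evalEval_C]⟩

lemma IsLaurent.snd : IsLaurent fun _ v => v :=
  ⟨X, 0, 0, fun u v _ _ => by simp⟩

lemma IsLaurent.inv_fst : IsLaurent fun u _ => u⁻¹ :=
  ⟨1, 1, 0, fun u v hu _ => by simp [hu]⟩

lemma IsLaurent.inv_snd : IsLaurent fun _ v => v⁻¹ :=
  ⟨1, 0, 1, fun u v _ hv => by simp [hv]⟩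

lemma IsLaurent.add {φ ψ : ℂ → ℂ → ℂ} (h1 : IsLaurent φ) (h2 : IsLaurent ψ) :
    IsLaurent fun u v => φ u v + ψ u v := by
  obtain ⟨P, m, n, hP⟩ := h1
  obtain ⟨Q, m', n', hQ⟩ := h2
  refine ⟨P * C (X ^ m') * X ^ n' + Q * C (X ^ m) * X ^ n, m + m', n + n', fun u v hu hv => ?_⟩
  have e1 := hP u v hu hv
  have e2 := hQ u v hu hv
  simp only [Polynomial.evalEval_add, Polynomial.evalEval_mul, ← e1, ← e2, Polynomial.evalEval_C,
    Polynomial.evalEval_pow, Polynomial.evalEval_X, Polynomial.eval_pow, Polynomial.eval_X]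
  ring

lemma IsLaurent.mul {φ ψ : ℂ → ℂ → ℂ} (h1 : IsLaurent φ) (h2 : IsLaurent ψ) :
    IsLaurent fun u v => φ u v * ψ u v := by
  obtain ⟨P, m, n, hP⟩ := h1
  obtain ⟨Q, m', n', hQ⟩ := h2
  refine ⟨P * Q, m + m', n + n', fun u v hu hv => ?_⟩
  have e1 := hP u v hu hv
  have e2 := hQ u v hu hv
  simp only [Polynomial.evalEval_mul, ← e1, ← e2]
  ring

lemma IsLaurent.neg {φ : ℂ → ℂ → ℂ} (h1 : IsLaurent φ) : IsLaurent fun u v => - φ u v := by
  have := (IsLaurent.const (-1)).mul h1
  simpa using this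

lemma IsLaurent.sub {φ ψ : ℂ → ℂ → ℂ} (h1 : IsLaurent φ) (h2 : IsLaurent ψ) :
    IsLaurent fun u v => φ u v - ψ u v := by
  have := h1.add h2.neg
  simpa [sub_eq_add_neg] using this

lemma IsLaurent.pow {φ : ℂ → ℂ → ℂ} (h1 : IsLaurent φ) (k : ℕ) :
    IsLaurent fun u v => φ u v ^ k := by
  induction k with
  | zero => simpa using IsLaurent.const 1
  | succ k ih => simpa [pow_succ] using ih.mul h1

/-- Polynomial expressions in Laurent functions are Laurent. -/
lemma IsLaurent.aeval {σ : Type*} (φ : σ → ℂ → ℂ → ℂ) (hφ : ∀ s, IsLaurent (φ s))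
    (f : MvPolynomial σ ℂ) :
    IsLaurent fun u v => MvPolynomial.aeval (fun s => φ s u v) f := by
  induction f using MvPolynomial.induction_on with
  | C c => simpa using IsLaurent.const c
  | add p q hp hq => simpa using hp.add hq
  | mul_X p s hp => simpa using hp.mul (hφ s)

lemma IsLaurent.eval_inner {φ : ℂ → ℂ → ℂ} (h1 : IsLaurent φ) (a : ℂ[X]) :
    IsLaurent fun u v => a.eval (φ u v) := by
  induction a using Polynomial.induction_on' with
  | add p q hp hq => simpa [Polynomial.eval_add] using hp.add hq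
  | monomial m c => simpa [Polynomial.eval_monomial] using (IsLaurent.const c).mul (h1.pow m)

/-- Bivariate polynomial expressions in Laurent functions are Laurent. -/
lemma IsLaurent.evalEval {φ ψ : ℂ → ℂ → ℂ} (h1 : IsLaurent φ) (h2 : IsLaurent ψ) (P : ℂ[X][Y]) :
    IsLaurent fun u v => P.evalEval (φ u v) (ψ u v) := by
  induction P using Polynomial.induction_on' with
  | add p q hp hq => simpa [Polynomial.evalEval_add] using hp.add hq
  | monomial n a =>
    simpa [Polynomial.evalEval, Polynomial.eval_monomial] using (h1.eval_inner a).mul (h2.pow n)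

/-- A Laurent function vanishing on a product of infinite sets vanishes on all nonzero points. -/
lemma IsLaurent.eq_zero_of_vanish {φ : ℂ → ℂ → ℂ} (h : IsLaurent φ) (S T : Set ℂ)
    (hS : S.Infinite) (hT : T.Infinite) (hS0 : ∀ u ∈ S, u ≠ 0) (hT0 : ∀ v ∈ T, v ≠ 0)
    (hv : ∀ u ∈ S, ∀ v ∈ T, φ u v = 0) : ∀ u v : ℂ, u ≠ 0 → v ≠ 0 → φ u v = 0 := by
  obtain ⟨P, m, n, hP⟩ := h
  have hP0 : P = 0 := by
    apply eq_zero_of_vanish_grid P S T hS hT
    intro u hu v hv'
    rw [← hP u v (hS0 u hu) (hT0 v hv'), hv u hu v hv']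
    simp
  intro u v hu hv'
  have := hP u v hu hv'
  rw [hP0] at this
  simp only [Polynomial.evalEval_zero] at this
  have h1 : u ^ m ≠ 0 := pow_ne_zero _ hu
  have h2 : v ^ n ≠ 0 := pow_ne_zero _ hv'
  simpa [h1, h2] using this

/-- A product of Laurent functions vanishing on a grid: one factor vanishes. -/
lemma IsLaurent.eq_zero_or_of_mul {φ ψ : ℂ → ℂ → ℂ} (h1 : IsLaurent φ) (h2 : IsLaurent ψ)
    (S T : Set ℂ) (hS : S.Infinite) (hT : T.Infinite) (hS0 : ∀ u ∈ S, u ≠ 0) (hT0 : ∀ v ∈ T, v ≠ 0)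
    (hv : ∀ u ∈ S, ∀ v ∈ T, φ u v = 0 ∨ ψ u v = 0) :
    (∀ u v : ℂ, u ≠ 0 → v ≠ 0 → φ u v = 0) ∨ (∀ u v : ℂ, u ≠ 0 → v ≠ 0 → ψ u v = 0) := by
  obtain ⟨P, m, n, hP⟩ := h1
  obtain ⟨Q, m', n', hQ⟩ := h2
  have hPQ : P * Q = 0 := by
    apply eq_zero_of_vanish_grid _ S T hS hT
    intro u hu v hv'
    rw [Polynomial.evalEval_mul, ← hP u v (hS0 u hu) (hT0 v hv'), ← hQ u v (hS0 u hu) (hT0 v hv')]
    rcases hv u hu v hv' with h | h <;> simp [h]
  rcases mul_eq_zero.mp hPQ with h | h
  · left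
    intro u v hu hv'
    have := hP u v hu hv'
    rw [h] at this
    simp only [Polynomial.evalEval_zero] at this
    simpa [pow_ne_zero _ hu, pow_ne_zero _ hv', hu, hv'] using this
  · right
    intro u v hu hv'
    have := hQ u v hu hv'
    rw [h] at this
    simp only [Polynomial.evalEval_zero] at this
    simpa [pow_ne_zero _ hu, pow_ne_zero _ hv', hu, hv'] using this

end Vale.Agent.Lib.P002
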