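import Mathlib
import Vale.Agent.Lib.P002.Bivariate

namespace Vale.Agent.Lib.P002

open Polynomial
open scoped Polynomial.Bivariate

/-- Parity of degrees: if `α² = β² Δ` with `Δ` of odd degree in the outer variable, `α = β = 0`. -/
lemma parity_square (Δ α β : ℂ[X][Y]) (hΔ : Odd Δ.natDegree) (h : α ^ 2 = β ^ 2 * Δ) :
    α = 0 ∧ β = 0 := by
  have hΔ0 : Δ ≠ 0 := by
    rintro rfl
    simp at hΔ
  have hβ : β = 0 := by
    by_contra hβ
    have h1 : (α ^ 2).natDegree = 2 * α.natDegree := by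
      rw [Polynomial.natDegree_pow]
    have h2 : (β ^ 2 * Δ).natDegree = 2 * β.natDegree + Δ.natDegree := by
      rw [Polynomial.natDegree_mul (pow_ne_zero _ hβ) hΔ0, Polynomial.natDegree_pow]
    rw [h, h2] at h1
    obtain ⟨m, hm⟩ := hΔ
    omega
  subst hβ
  simp at h
  exact ⟨h, rfl⟩

/-- Abstract form of the double cover argument. -/
theorem double_cover_vanish (E F : ℂ[X][Y]) (hodd : Odd (E ^ 2 - 4 * F).natDegree)
    (x y q : ℂ → ℂ → ℂ)
    (hind : ∀ P : ℂ[X][Y], (∀ u v : ℂ, u ≠ 0 → v ≠ 0 → P.evalEval (x u v) (y u v) = 0) → P = 0)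
    (hrel : ∀ u v : ℂ, u ≠ 0 → v ≠ 0 →
      q u v ^ 2 - E.evalEval (x u v) (y u v) * q u v + F.evalEval (x u v) (y u v) = 0)
    (α β : ℂ[X][Y])
    (hvan : ∀ u v : ℂ, u ≠ 0 → v ≠ 0 →
      α.evalEval (x u v) (y u v) + β.evalEval (x u v) (y u v) * q u v = 0) :
    α = 0 ∧ β = 0 := by
  have key : (2 * α + β * E) ^ 2 = β ^ 2 * (E ^ 2 - 4 * F) := by
    have h0 := hind ((2 * α + β * E) ^ 2 - β ^ 2 * (E ^ 2 - 4 * F)) (by
      intro u v hu hv
      have h1 := hrel u v hu hv
      have h2 := hvan u v hu hv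
      simp only [Polynomial.evalEval_sub, Polynomial.evalEval_mul, Polynomial.evalEval_add,
        Polynomial.evalEval_pow]
      have h4 : (4 : ℂ[X][Y]).evalEval (x u v) (y u v) = 4 := by
        simpa using Polynomial.evalEval_natCast (x u v) (y u v) 4
      have h22 : (2 : ℂ[X][Y]).evalEval (x u v) (y u v) = 2 := by
        simpa using Polynomial.evalEval_natCast (x u v) (y u v) 2
      rw [h4, h22]
      set A := α.evalEval (x u v) (y u v)
      set B := β.evalEval (x u v) (y u v)
      set EE := E.evalEval (x u v) (y u v)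
      set FF := F.evalEval (x u v) (y u v)
      set Q := q u v
      have hA : A = - B * Q := by linear_combination h2
      rw [hA]
      have hF : FF = EE * Q - Q ^ 2 := by linear_combination h1
      rw [hF]
      ring)
    exact sub_eq_zero.mp h0
  obtain ⟨h1, h2⟩ := parity_square _ _ _ hodd key
  subst h2
  refine ⟨?_, rfl⟩
  simpa using h1

end Vale.Agent.Lib.P002
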