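import Mathlib
import Vale.Agent.Lib.P002.Surface

namespace Vale.Agent.Lib.P002

open Polynomial
open scoped Polynomial.Bivariate

/-- The linear polynomial (in the outer variable `y`) giving a diagonal entry of `B`. -/
noncomputable def Lpoly (a b c τ τb : ℂ) : ℂ[X][Y] :=
  C (C ((a * (τ - (b + c) * τb)) / ((a - b) * (a - c)))) + C (C (1 / ((a - b) * (a - c)))) * X

/-- The linear polynomial (in the inner variable `x`) giving a diagonal cofactor of `B`. -/
noncomputable def Mpoly (a b c σ σb : ℂ) : ℂ[X][Y] :=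
  C (C ((σ - a * (b + c) * σb) / ((a - b) * (a - c))) + C (a / ((a - b) * (a - c))) * X)

lemma Lpoly_eval (a b c τ τb x y : ℂ) :
    (Lpoly a b c τ τb).evalEval x y = (a * (τ - (b + c) * τb) + y) / ((a - b) * (a - c)) := by
  simp only [Lpoly, Polynomial.evalEval_add, Polynomial.evalEval_mul, Polynomial.evalEval_C,
    Polynomial.eval_C, Polynomial.evalEval_X]
  ring

lemma Mpoly_eval (a b c σ σb x y : ℂ) :
    (Mpoly a b c σ σb).evalEval x y = (σ - a * (b + c) * σb + a * x) / ((a - b) * (a - c)) := by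
  simp only [Mpoly, Polynomial.evalEval_C, Polynomial.eval_add, Polynomial.eval_mul,
    Polynomial.eval_C, Polynomial.eval_X]
  ring

lemma Lpoly_natDegree (a b c τ τb : ℂ) (hab : a ≠ b) (hac : a ≠ c) :
    (Lpoly a b c τ τb).natDegree = 1 := by
  have h : (C (1 / ((a - b) * (a - c))) : ℂ[X]) ≠ 0 := by
    simp only [ne_eq, Polynomial.C_eq_zero, one_div, inv_eq_zero, mul_eq_zero, sub_eq_zero]
    tauto
  rw [Lpoly, add_comm]
  exact Polynomial.natDegree_linear h

lemma Mpoly_natDegree (a b c σ σb : ℂ) : (Mpoly a b c σ σb).natDegree = 0 := by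
  rw [Mpoly]
  exact Polynomial.natDegree_C _

/-- Constants of the surface. -/
structure SurfaceData where
  a0 : ℂ
  a1 : ℂ
  a2 : ℂ
  τb : ℂ
  τe : ℂ
  σb : ℂ
  σe : ℂ

namespace SurfaceData

variable (D : SurfaceData)

noncomputable def L0 : ℂ[X][Y] := Lpoly D.a0 D.a1 D.a2 D.τe D.τb
noncomputable def L1 : ℂ[X][Y] := Lpoly D.a1 D.a0 D.a2 D.τe D.τb
noncomputable def L2 : ℂ[X][Y] := Lpoly D.a2 D.a0 D.a1 D.τe D.τb
noncomputable def M0 : ℂ[X][Y] := Mpoly D.a0 D.a1 D.a2 D.σe D.σb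
noncomputable def M1 : ℂ[X][Y] := Mpoly D.a1 D.a0 D.a2 D.σe D.σb
noncomputable def M2 : ℂ[X][Y] := Mpoly D.a2 D.a0 D.a1 D.σe D.σb

noncomputable def Epoly : ℂ[X][Y] :=
  1 + 2 * (D.L0 * D.L1 * D.L2) - (D.L0 * D.M0 + D.L1 * D.M1 + D.L2 * D.M2)

noncomputable def Fpoly : ℂ[X][Y] :=
  (D.L1 * D.L2 - D.M0) * (D.L0 * D.L2 - D.M1) * (D.L0 * D.L1 - D.M2)

/-- The discriminant has odd degree (three) in the outer variable. -/
lemma odd_disc (h01 : D.a0 ≠ D.a1) (h02 : D.a0 ≠ D.a2) (h12 : D.a1 ≠ D.a2) :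
    Odd (D.Epoly ^ 2 - 4 * D.Fpoly).natDegree := by
  have hL0 : D.L0.natDegree = 1 := Lpoly_natDegree _ _ _ _ _ h01 h02
  have hL1 : D.L1.natDegree = 1 := Lpoly_natDegree _ _ _ _ _ h01.symm h12
  have hL2 : D.L2.natDegree = 1 := Lpoly_natDegree _ _ _ _ _ h02.symm h12.symm
  have hM0 : D.M0.natDegree = 0 := Mpoly_natDegree _ _ _ _ _
  have hM1 : D.M1.natDegree = 0 := Mpoly_natDegree _ _ _ _ _
  have hM2 : D.M2.natDegree = 0 := Mpoly_natDegree _ _ _ _ _
  have hne0 : D.L0 ≠ 0 := by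
    intro h; rw [h] at hL0; simp at hL0
  have hne1 : D.L1 ≠ 0 := by
    intro h; rw [h] at hL1; simp at hL1
  have hne2 : D.L2 ≠ 0 := by
    intro h; rw [h] at hL2; simp at hL2
  set e0 := D.L0 * D.M0 with he0
  set e1 := D.L1 * D.M1 with he1
  set e2 := D.L2 * D.M2 with he2
  have hde0 : e0.natDegree ≤ 1 := by
    refine Polynomial.natDegree_mul_le.trans ?_
    omega
  have hde1 : e1.natDegree ≤ 1 := by
    refine Polynomial.natDegree_mul_le.trans ?_
    omega
  have hde2 : e2.natDegree ≤ 1 := by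
    refine Polynomial.natDegree_mul_le.trans ?_
    omega
  let S : ℂ[X][Y] := e0 ^ 2 + e1 ^ 2 + e2 ^ 2 - 2 * (e0 * e1) - 2 * (e0 * e2) - 2 * (e1 * e2)
    - 2 * (e0 + e1 + e2) + 1 + 4 * (D.M0 * D.M1 * D.M2)
  have hid : D.Epoly ^ 2 - 4 * D.Fpoly = 4 * (D.L0 * D.L1 * D.L2) + S := by
    simp only [Epoly, Fpoly, S, he0, he1, he2]
    ring
  have hnd2 : ((2 : ℂ[X][Y])).natDegree = 0 := by
    have := Polynomial.natDegree_natCast (R := ℂ[X]) 2
    simpa using this
  have hnd4 : ((4 : ℂ[X][Y])).natDegree = 0 := by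
    have := Polynomial.natDegree_natCast (R := ℂ[X]) 4
    simpa using this
  have hS : S.natDegree ≤ 2 := by
    simp only [S]
    have hc : ∀ (n : ℕ) (p : ℂ[X][Y]), p.natDegree ≤ n → ((2 : ℂ[X][Y]) * p).natDegree ≤ n := by
      intro n p hp
      refine Polynomial.natDegree_mul_le.trans ?_
      omega
    have hsq : ∀ p : ℂ[X][Y], p.natDegree ≤ 1 → (p ^ 2).natDegree ≤ 2 := by
      intro p hp
      refine Polynomial.natDegree_pow_le.trans ?_
      omega
    have hpr : ∀ p q : ℂ[X][Y], p.natDegree ≤ 1 → q.natDegree ≤ 1 → (p * q).natDegree ≤ 2 := by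
      intro p q hp hq
      refine Polynomial.natDegree_mul_le.trans ?_
      omega
    have h4 : (4 * (D.M0 * D.M1 * D.M2)).natDegree ≤ 2 := by
      have h1 : (D.M0 * D.M1 * D.M2).natDegree ≤ 0 := by
        refine Polynomial.natDegree_mul_le.trans ?_
        have := Polynomial.natDegree_mul_le (p := D.M0) (q := D.M1)
        omega
      refine Polynomial.natDegree_mul_le.trans ?_
      omega
    have h1one : (1 : ℂ[X][Y]).natDegree ≤ 2 := by simp
    have hs1 : (e0 + e1 + e2).natDegree ≤ 1 := by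
      refine (Polynomial.natDegree_add_le _ _).trans ?_
      have := Polynomial.natDegree_add_le e0 e1
      omega
    have t1 := hsq e0 hde0
    have t2 := hsq e1 hde1
    have t3 := hsq e2 hde2
    have t4 := hc 2 _ (hpr e0 e1 hde0 hde1)
    have t5 := hc 2 _ (hpr e0 e2 hde0 hde2)
    have t6 := hc 2 _ (hpr e1 e2 hde1 hde2)
    have t7 := hc 1 _ hs1
    have add_le : ∀ p q : ℂ[X][Y], p.natDegree ≤ 2 → q.natDegree ≤ 2 → (p + q).natDegree ≤ 2 := by
      intro p q hp hq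
      exact (Polynomial.natDegree_add_le _ _).trans (by omega)
    have sub_le : ∀ p q : ℂ[X][Y], p.natDegree ≤ 2 → q.natDegree ≤ 2 → (p - q).natDegree ≤ 2 := by
      intro p q hp hq
      exact (Polynomial.natDegree_sub_le _ _).trans (by omega)
    exact add_le _ _ (add_le _ _ (sub_le _ _ (sub_le _ _ (sub_le _ _ (sub_le _ _ (add_le _ _ (add_le _ _ t1 t2) t3) t4) t5) t6) (t7.trans (by omega))) h1one) h4
  have hmain : (4 * (D.L0 * D.L1 * D.L2)).natDegree = 3 := by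
    have h4ne : (4 : ℂ[X][Y]) ≠ 0 := by norm_num
    rw [Polynomial.natDegree_mul h4ne (mul_ne_zero (mul_ne_zero hne0 hne1) hne2),
      Polynomial.natDegree_mul (mul_ne_zero hne0 hne1) hne2,
      Polynomial.natDegree_mul hne0 hne1, hnd4, hL0, hL1, hL2]
  have htot : (D.Epoly ^ 2 - 4 * D.Fpoly).natDegree = 3 := by
    rw [hid, Polynomial.natDegree_add_eq_left_of_natDegree_lt (by omega), hmain]
  rw [htot]
  decide

/-- The polynomial `F` does not vanish. -/
lemma Fpoly_ne_zero (h01 : D.a0 ≠ D.a1) (h02 : D.a0 ≠ D.a2) (h12 : D.a1 ≠ D.a2) :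
    D.Fpoly ≠ 0 := by
  have hL0 : D.L0.natDegree = 1 := Lpoly_natDegree _ _ _ _ _ h01 h02
  have hL1 : D.L1.natDegree = 1 := Lpoly_natDegree _ _ _ _ _ h01.symm h12
  have hL2 : D.L2.natDegree = 1 := Lpoly_natDegree _ _ _ _ _ h02.symm h12.symm
  have hM0 : D.M0.natDegree = 0 := Mpoly_natDegree _ _ _ _ _
  have hM1 : D.M1.natDegree = 0 := Mpoly_natDegree _ _ _ _ _
  have hM2 : D.M2.natDegree = 0 := Mpoly_natDegree _ _ _ _ _
  have hne0 : D.L0 ≠ 0 := by
    intro h; rw [h] at hL0; simp at hL0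
  have hne1 : D.L1 ≠ 0 := by
    intro h; rw [h] at hL1; simp at hL1
  have hne2 : D.L2 ≠ 0 := by
    intro h; rw [h] at hL2; simp at hL2
  have key : ∀ (p q r : ℂ[X][Y]), p ≠ 0 → q ≠ 0 → p.natDegree = 1 → q.natDegree = 1 →
      r.natDegree = 0 → p * q - r ≠ 0 := by
    intro p q r hp hq hpd hqd hrd h
    have h1 : (p * q).natDegree = 2 := by
      rw [Polynomial.natDegree_mul hp hq, hpd, hqd]
    have h2 : p * q = r := sub_eq_zero.mp h
    rw [h2, hrd] at h1
    omega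
  exact mul_ne_zero (mul_ne_zero (key _ _ _ hne1 hne2 hL1 hL2 hM0)
    (key _ _ _ hne0 hne2 hL0 hL2 hM1)) (key _ _ _ hne0 hne1 hL0 hL1 hM2)

end SurfaceData

end Vale.Agent.Lib.P002
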