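import Mathlib
import Vale.Agent.Lib.P002.Cover

set_option linter.unusedSectionVars false

namespace Vale.Agent.Lib.P002

open Polynomial
open scoped Polynomial.Bivariate

abbrev Mat3 := Matrix (Fin 3) (Fin 3) ℂ

def cof0 (B : Mat3) : ℂ := B 1 1 * B 2 2 - B 1 2 * B 2 1
def cof1 (B : Mat3) : ℂ := B 0 0 * B 2 2 - B 0 2 * B 2 0
def cof2 (B : Mat3) : ℂ := B 0 0 * B 1 1 - B 0 1 * B 1 0
def qc (B : Mat3) : ℂ := B 0 1 * B 1 2 * B 2 0
def qc' (B : Mat3) : ℂ := B 0 2 * B 2 1 * B 1 0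

namespace SurfaceData

variable (D : SurfaceData)

def xCoord (B : Mat3) : ℂ := D.a0 * cof0 B + D.a1 * cof1 B + D.a2 * cof2 B
def yCoord (B : Mat3) : ℂ := D.a1 * D.a2 * B 0 0 + D.a0 * D.a2 * B 1 1 + D.a0 * D.a1 * B 2 2

structure InW (B : Mat3) : Prop where
  det : B.det = 1
  trb : B 0 0 + B 1 1 + B 2 2 = D.τb
  tre : D.a0 * B 0 0 + D.a1 * B 1 1 + D.a2 * B 2 2 = D.τe
  trc : cof0 B + cof1 B + cof2 B = D.σb
  trd : D.a1 * D.a2 * cof0 B + D.a0 * D.a2 * cof1 B + D.a0 * D.a1 * cof2 B = D.σe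

variable {D}

lemma solve_linear {a b c d0 d1 d2 τ τb y : ℂ} (hab : a ≠ b) (hac : a ≠ c)
    (h1 : d0 + d1 + d2 = τb) (h2 : a * d0 + b * d1 + c * d2 = τ)
    (h3 : b * c * d0 + a * c * d1 + a * b * d2 = y) :
    (a * (τ - (b + c) * τb) + y) / ((a - b) * (a - c)) = d0 := by
  have hne : (a - b) * (a - c) ≠ 0 := mul_ne_zero (sub_ne_zero.mpr hab) (sub_ne_zero.mpr hac)
  rw [div_eq_iff hne, ← h1, ← h2, ← h3]
  ring

section
variable {B : Mat3} (hB : D.InW B) (h01 : D.a0 ≠ D.a1) (h02 : D.a0 ≠ D.a2) (h12 : D.a1 ≠ D.a2)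
include hB h01 h02 h12

lemma L0_eval : D.L0.evalEval (D.xCoord B) (D.yCoord B) = B 0 0 := by
  rw [L0, Lpoly_eval]
  exact solve_linear h01 h02 hB.trb hB.tre rfl

lemma L1_eval : D.L1.evalEval (D.xCoord B) (D.yCoord B) = B 1 1 := by
  rw [L1, Lpoly_eval]
  refine solve_linear (d1 := B 0 0) (d2 := B 2 2) h01.symm h12 ?_ ?_ ?_
  · rw [← hB.trb]; ring
  · rw [← hB.tre]; ring
  · simp only [yCoord]; ring

lemma L2_eval : D.L2.evalEval (D.xCoord B) (D.yCoord B) = B 2 2 := by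
  rw [L2, Lpoly_eval]
  refine solve_linear (d1 := B 0 0) (d2 := B 1 1) h02.symm h12.symm ?_ ?_ ?_
  · rw [← hB.trb]; ring
  · rw [← hB.tre]; ring
  · simp only [yCoord]; ring

lemma M0_eval : D.M0.evalEval (D.xCoord B) (D.yCoord B) = cof0 B := by
  rw [M0, Mpoly_eval]
  have := solve_linear (a := D.a0) (b := D.a1) (c := D.a2) (d0 := cof0 B) (d1 := cof1 B)
    (d2 := cof2 B) (τ := D.xCoord B) (τb := D.σb) (y := D.σe) h01 h02 hB.trc rfl hB.trd
  rw [← this]; ring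

lemma M1_eval : D.M1.evalEval (D.xCoord B) (D.yCoord B) = cof1 B := by
  rw [M1, Mpoly_eval]
  have := solve_linear (a := D.a1) (b := D.a0) (c := D.a2) (d0 := cof1 B) (d1 := cof0 B)
    (d2 := cof2 B) (τ := D.xCoord B) (τb := D.σb) (y := D.σe) h01.symm h12
    (by rw [← hB.trc]; ring) (by simp only [xCoord]; ring) (by rw [← hB.trd]; ring)
  rw [← this]; ring

lemma M2_eval : D.M2.evalEval (D.xCoord B) (D.yCoord B) = cof2 B := by
  rw [M2, Mpoly_eval]
  have := solve_linear (a := D.a2) (b := D.a0) (c := D.a1) (d0 := cof2 B) (d1 := cof0 B)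
    (d2 := cof1 B) (τ := D.xCoord B) (τb := D.σb) (y := D.σe) h02.symm h12.symm
    (by rw [← hB.trc]; ring) (by simp only [xCoord]; ring) (by rw [← hB.trd]; ring)
  rw [← this]; ring

lemma E_eval : D.Epoly.evalEval (D.xCoord B) (D.yCoord B) = qc B + qc' B := by
  have e0 := L0_eval hB h01 h02 h12
  have e1 := L1_eval hB h01 h02 h12
  have e2 := L2_eval hB h01 h02 h12
  have e3 := M0_eval hB h01 h02 h12
  have e4 := M1_eval hB h01 h02 h12
  have e5 := M2_eval hB h01 h02 h12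
  have h22 : (2 : ℂ[X][Y]).evalEval (D.xCoord B) (D.yCoord B) = 2 := by
    simpa using Polynomial.evalEval_natCast (D.xCoord B) (D.yCoord B) 2
  simp only [Epoly, Polynomial.evalEval_sub, Polynomial.evalEval_add, Polynomial.evalEval_mul,
    Polynomial.evalEval_one, h22, e0, e1, e2, e3, e4, e5]
  have hd := hB.det
  rw [Matrix.det_fin_three] at hd
  simp only [cof0, cof1, cof2, qc, qc']
  linear_combination (-1 : ℂ) * hd

lemma F_eval : D.Fpoly.evalEval (D.xCoord B) (D.yCoord B) = qc B * qc' B := by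
  have e0 := L0_eval hB h01 h02 h12
  have e1 := L1_eval hB h01 h02 h12
  have e2 := L2_eval hB h01 h02 h12
  have e3 := M0_eval hB h01 h02 h12
  have e4 := M1_eval hB h01 h02 h12
  have e5 := M2_eval hB h01 h02 h12
  simp only [Fpoly, Polynomial.evalEval_sub, Polynomial.evalEval_mul, e0, e1, e2, e3, e4, e5]
  simp only [cof0, cof1, cof2, qc, qc']
  ring

lemma rel_eval : qc B ^ 2 - D.Epoly.evalEval (D.xCoord B) (D.yCoord B) * qc B
    + D.Fpoly.evalEval (D.xCoord B) (D.yCoord B) = 0 := by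
  rw [E_eval hB h01 h02 h12, F_eval hB h01 h02 h12]
  ring

end

variable (D)

/-- Functions on the surface that are of the form `α(x,y) + β(x,y) q`. -/
def Cl (φ : Mat3 → ℂ) : Prop :=
  ∃ α β : ℂ[X][Y], ∀ B, D.InW B →
    φ B = α.evalEval (D.xCoord B) (D.yCoord B) + β.evalEval (D.xCoord B) (D.yCoord B) * qc B

variable {D}

lemma Cl.congr {φ ψ : Mat3 → ℂ} (h : D.Cl φ) (e : ∀ B, φ B = ψ B) : D.Cl ψ := by
  have : φ = ψ := funext e
  rwa [← this]

lemma Cl.const (c : ℂ) : D.Cl fun _ => c :=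
  ⟨C (C c), 0, fun B _ => by simp [Polynomial.evalEval_C]⟩

lemma Cl.add {φ ψ : Mat3 → ℂ} (h1 : D.Cl φ) (h2 : D.Cl ψ) : D.Cl fun B => φ B + ψ B := by
  obtain ⟨α, β, h⟩ := h1
  obtain ⟨α', β', h'⟩ := h2
  refine ⟨α + α', β + β', fun B hB => ?_⟩
  simp only [Polynomial.evalEval_add, h B hB, h' B hB]
  ring

lemma Cl.mul (h01 : D.a0 ≠ D.a1) (h02 : D.a0 ≠ D.a2) (h12 : D.a1 ≠ D.a2)
    {φ ψ : Mat3 → ℂ} (h1 : D.Cl φ) (h2 : D.Cl ψ) : D.Cl fun B => φ B * ψ B := by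
  obtain ⟨α, β, h⟩ := h1
  obtain ⟨α', β', h'⟩ := h2
  refine ⟨α * α' - β * β' * D.Fpoly, α * β' + α' * β + β * β' * D.Epoly, fun B hB => ?_⟩
  have hrel := rel_eval hB h01 h02 h12
  simp only [Polynomial.evalEval_add, Polynomial.evalEval_sub, Polynomial.evalEval_mul, h B hB,
    h' B hB]
  linear_combination (β.evalEval (D.xCoord B) (D.yCoord B) * β'.evalEval (D.xCoord B) (D.yCoord B)) * hrel

lemma Cl.pow (h01 : D.a0 ≠ D.a1) (h02 : D.a0 ≠ D.a2) (h12 : D.a1 ≠ D.a2)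
    {φ : Mat3 → ℂ} (h1 : D.Cl φ) (k : ℕ) : D.Cl fun B => φ B ^ k := by
  induction k with
  | zero => simpa using Cl.const 1
  | succ k ih => simpa [pow_succ] using ih.mul h01 h02 h12 h1

lemma Cl.sum {ι : Type*} (s : Finset ι) (φ : ι → Mat3 → ℂ) (h : ∀ i ∈ s, D.Cl (φ i)) :
    D.Cl fun B => ∑ i ∈ s, φ i B := by
  classical
  induction s using Finset.induction_on with
  | empty => simpa using Cl.const 0
  | insert a s has ih =>
    simp only [Finset.sum_insert has]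
    exact (h a (Finset.mem_insert_self _ _)).add (ih fun i hi => h i (Finset.mem_insert_of_mem hi))

section gens
variable (h01 : D.a0 ≠ D.a1) (h02 : D.a0 ≠ D.a2) (h12 : D.a1 ≠ D.a2)
include h01 h02 h12

lemma Cl.d0 : D.Cl fun B => B 0 0 :=
  ⟨D.L0, 0, fun B hB => by rw [L0_eval hB h01 h02 h12]; simp⟩
lemma Cl.d1 : D.Cl fun B => B 1 1 :=
  ⟨D.L1, 0, fun B hB => by rw [L1_eval hB h01 h02 h12]; simp⟩
lemma Cl.d2 : D.Cl fun B => B 2 2 :=
  ⟨D.L2, 0, fun B hB => by rw [L2_eval hB h01 h02 h12]; simp⟩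
lemma Cl.c0 : D.Cl fun B => cof0 B :=
  ⟨D.M0, 0, fun B hB => by rw [M0_eval hB h01 h02 h12]; simp⟩
lemma Cl.c1 : D.Cl fun B => cof1 B :=
  ⟨D.M1, 0, fun B hB => by rw [M1_eval hB h01 h02 h12]; simp⟩
lemma Cl.c2 : D.Cl fun B => cof2 B :=
  ⟨D.M2, 0, fun B hB => by rw [M2_eval hB h01 h02 h12]; simp⟩
lemma Cl.p0 : D.Cl fun B => B 1 2 * B 2 1 := by
  have := ((Cl.d1 h01 h02 h12).mul h01 h02 h12 (Cl.d2 h01 h02 h12)).add
    ((Cl.const (-1)).mul h01 h02 h12 (Cl.c0 h01 h02 h12))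
  refine this.congr fun B => ?_
  simp only [cof0]; ring
lemma Cl.p1 : D.Cl fun B => B 0 2 * B 2 0 := by
  have := ((Cl.d0 h01 h02 h12).mul h01 h02 h12 (Cl.d2 h01 h02 h12)).add
    ((Cl.const (-1)).mul h01 h02 h12 (Cl.c1 h01 h02 h12))
  refine this.congr fun B => ?_
  simp only [cof1]; ring
lemma Cl.p2 : D.Cl fun B => B 0 1 * B 1 0 := by
  have := ((Cl.d0 h01 h02 h12).mul h01 h02 h12 (Cl.d1 h01 h02 h12)).add
    ((Cl.const (-1)).mul h01 h02 h12 (Cl.c2 h01 h02 h12))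
  refine this.congr fun B => ?_
  simp only [cof2]; ring
lemma Cl.q : D.Cl fun B => qc B :=
  ⟨0, 1, fun B _ => by simp⟩
lemma Cl.q' : D.Cl fun B => qc' B :=
  ⟨D.Epoly, -1, fun B hB => by
    rw [E_eval hB h01 h02 h12]
    simp⟩

/-- Off-diagonal monomials with balanced exponents belong to the class. -/
lemma Cl.off (n : ℕ) : ∀ e01 e02 e10 e12 e20 e21 : ℕ,
    e01 + e02 + e10 + e12 + e20 + e21 = n →
    e01 + e02 = e10 + e20 → e10 + e12 = e01 + e21 → e20 + e21 = e02 + e12 →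
    D.Cl fun B => B 0 1 ^ e01 * B 0 2 ^ e02 * B 1 0 ^ e10 * B 1 2 ^ e12 * B 2 0 ^ e20 * B 2 1 ^ e21 := by
  induction n using Nat.strong_induction_on with
  | _ n ih =>
    intro e01 e02 e10 e12 e20 e21 hn hb0 hb1 hb2
    by_cases c1 : 0 < e01 ∧ 0 < e10
    · obtain ⟨c11, c12⟩ := c1
      have := ih (n - 2) (by omega) (e01 - 1) e02 (e10 - 1) e12 e20 e21 (by omega) (by omega)
        (by omega) (by omega)
      have h2 := (Cl.p2 h01 h02 h12).mul h01 h02 h12 this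
      refine h2.congr fun B => ?_
      obtain ⟨k, rfl⟩ : ∃ k, e01 = k + 1 := ⟨e01 - 1, by omega⟩
      obtain ⟨k', rfl⟩ : ∃ k, e10 = k + 1 := ⟨e10 - 1, by omega⟩
      simp only [Nat.add_sub_cancel]
      ring
    by_cases c2 : 0 < e02 ∧ 0 < e20
    · obtain ⟨c11, c12⟩ := c2
      have := ih (n - 2) (by omega) e01 (e02 - 1) e10 e12 (e20 - 1) e21 (by omega) (by omega)
        (by omega) (by omega)
      have h2 := (Cl.p1 h01 h02 h12).mul h01 h02 h12 this
      refine h2.congr fun B => ?_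
      obtain ⟨k, rfl⟩ : ∃ k, e02 = k + 1 := ⟨e02 - 1, by omega⟩
      obtain ⟨k', rfl⟩ : ∃ k, e20 = k + 1 := ⟨e20 - 1, by omega⟩
      simp only [Nat.add_sub_cancel]
      ring
    by_cases c3 : 0 < e12 ∧ 0 < e21
    · obtain ⟨c11, c12⟩ := c3
      have := ih (n - 2) (by omega) e01 e02 e10 (e12 - 1) e20 (e21 - 1) (by omega) (by omega)
        (by omega) (by omega)
      have h2 := (Cl.p0 h01 h02 h12).mul h01 h02 h12 this
      refine h2.congr fun B => ?_
      obtain ⟨k, rfl⟩ : ∃ k, e12 = k + 1 := ⟨e12 - 1, by omega⟩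
      obtain ⟨k', rfl⟩ : ∃ k, e21 = k + 1 := ⟨e21 - 1, by omega⟩
      simp only [Nat.add_sub_cancel]
      ring
    by_cases c4 : 0 < e01
    · -- the three cycle q
      have h0 : e10 = 0 := by omega
      have h1 : e21 = 0 := by omega
      have h3 : e02 = 0 := by omega
      have := ih (n - 3) (by omega) (e01 - 1) e02 e10 (e12 - 1) (e20 - 1) e21 (by omega) (by omega)
        (by omega) (by omega)
      have h2 := (Cl.q h01 h02 h12).mul h01 h02 h12 this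
      refine h2.congr fun B => ?_
      obtain ⟨k, rfl⟩ : ∃ k, e01 = k + 1 := ⟨e01 - 1, by omega⟩
      obtain ⟨k', rfl⟩ : ∃ k, e12 = k + 1 := ⟨e12 - 1, by omega⟩
      obtain ⟨k'', rfl⟩ : ∃ k, e20 = k + 1 := ⟨e20 - 1, by omega⟩
      simp only [Nat.add_sub_cancel, qc]
      ring
    by_cases c5 : 0 < e10
    · have h0 : e01 = 0 := by omega
      have h1 : e12 = 0 := by omega
      have h3 : e20 = 0 := by omega
      have := ih (n - 3) (by omega) e01 (e02 - 1) (e10 - 1) e12 e20 (e21 - 1) (by omega) (by omega)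
        (by omega) (by omega)
      have h2 := (Cl.q' h01 h02 h12).mul h01 h02 h12 this
      refine h2.congr fun B => ?_
      obtain ⟨k, rfl⟩ : ∃ k, e02 = k + 1 := ⟨e02 - 1, by omega⟩
      obtain ⟨k', rfl⟩ : ∃ k, e10 = k + 1 := ⟨e10 - 1, by omega⟩
      obtain ⟨k'', rfl⟩ : ∃ k, e21 = k + 1 := ⟨e21 - 1, by omega⟩
      simp only [Nat.add_sub_cancel, qc']
      ring
    · have h0 : e01 = 0 := by omega
      have h1 : e10 = 0 := by omega
      have h3 : e02 = 0 := by omega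
      have h4 : e20 = 0 := by omega
      have h5 : e12 = 0 := by omega
      have h6 : e21 = 0 := by omega
      subst h0 h1 h3 h4 h5 h6
      simpa using Cl.const 1

end gens

end SurfaceData

end Vale.Agent.Lib.P002
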