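import Mathlib
import Vale.Agent.Lib.P002.Frame

set_option linter.unusedSectionVars false

namespace Vale.Agent.Lib.P002

open Polynomial
open scoped Polynomial.Bivariate

abbrev Idx := Fin 3 × Fin 3

/-- Action of a one parameter diagonal subgroup by conjugation on a point. -/
noncomputable def twist (n : Fin 3 → ℤ) (s : ℂ) (B : Idx → ℂ) : Idx → ℂ :=
  fun p => s ^ (n p.1) * B p * s ^ (-(n p.2))

/-- Weight of a monomial under the one parameter subgroup. -/
def weight (n : Fin 3 → ℤ) (d : Idx →₀ ℕ) : ℤ := ∑ p : Idx, (d p : ℤ) * (n p.1 - n p.2)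

lemma prod_twist (n : Fin 3 → ℤ) (s : ℂ) (hs : s ≠ 0) (B : Idx → ℂ) (d : Idx →₀ ℕ) :
    ∏ p : Idx, twist n s B p ^ d p = s ^ (weight n d) * ∏ p : Idx, B p ^ d p := by
  have h1 : ∀ p : Idx, twist n s B p ^ d p = (s ^ ((d p : ℤ) * (n p.1 - n p.2))) * B p ^ d p := by
    intro p
    simp only [twist]
    have : s ^ n p.1 * B p * s ^ (-n p.2) = s ^ (n p.1 - n p.2) * B p := by
      rw [sub_eq_add_neg, zpow_add₀ hs]; ring
    rw [this, mul_pow, ← zpow_natCast, ← zpow_mul, mul_comm ((n p.1 - n p.2)) ((d p : ℕ) : ℤ)]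
  simp only [h1, Finset.prod_mul_distrib, weight]
  congr 1
  have : ∀ (S : Finset Idx), ∏ p ∈ S, s ^ ((d p : ℤ) * (n p.1 - n p.2)) =
      s ^ (∑ p ∈ S, (d p : ℤ) * (n p.1 - n p.2)) := by
    intro S
    classical
    induction S using Finset.induction_on with
    | empty => simp
    | insert a S ha ih => rw [Finset.prod_insert ha, Finset.sum_insert ha, zpow_add₀ hs, ih]
  exact this _

lemma eval_twist (h : MvPolynomial Idx ℂ) (n : Fin 3 → ℤ) (s : ℂ) (hs : s ≠ 0) (B : Idx → ℂ) :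
    MvPolynomial.eval (twist n s B) h =
      ∑ d ∈ h.support, MvPolynomial.coeff d h * s ^ (weight n d) * ∏ p : Idx, B p ^ d p := by
  rw [MvPolynomial.eval_eq']
  refine Finset.sum_congr rfl fun d _ => ?_
  rw [prod_twist n s hs B d]
  ring

/-- Averaging over roots of unity extracts the weight zero part. -/
lemma eval_eq_weight_zero (h : MvPolynomial Idx ℂ) (n : Fin 3 → ℤ) (B : Idx → ℂ)
    (hinv : ∀ s : ℂ, s ≠ 0 → MvPolynomial.eval (twist n s B) h = MvPolynomial.eval B h) :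
    MvPolynomial.eval B h =
      ∑ d ∈ h.support.filter (fun d => weight n d = 0),
        MvPolynomial.coeff d h * ∏ p : Idx, B p ^ d p := by
  classical
  obtain ⟨N, hN0, hN⟩ : ∃ N : ℕ, 0 < N ∧ ∀ d ∈ h.support, |weight n d| < N := by
    refine ⟨(h.support.sup fun d => (weight n d).natAbs) + 1, Nat.succ_pos _, fun d hd => ?_⟩
    have h1 : (weight n d).natAbs ≤ h.support.sup fun d => (weight n d).natAbs :=
      Finset.le_sup (f := fun d => (weight n d).natAbs) hd
    have h2 : |weight n d| = ((weight n d).natAbs : ℤ) := (Int.natCast_natAbs _).symm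
    rw [h2]
    push_cast
    omega
  have hN0' : NeZero N := ⟨hN0.ne'⟩
  let ζ : ℂ := Complex.exp (2 * Real.pi * Complex.I / N)
  have hζ : IsPrimitiveRoot ζ N := Complex.isPrimitiveRoot_exp N hN0.ne'
  have hζ0 : ζ ≠ 0 := Complex.exp_ne_zero _
  have hgeom : ∀ w : ℤ, |w| < N → (∑ k ∈ Finset.range N, (ζ ^ k) ^ w) = if w = 0 then (N : ℂ) else 0 := by
    intro w hw
    by_cases hw0 : w = 0
    · subst hw0
      simp
    · rw [if_neg hw0]
      have h1 : ∀ k : ℕ, (ζ ^ k) ^ w = (ζ ^ w) ^ k := by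
        intro k
        rw [← zpow_natCast, ← zpow_mul, mul_comm, zpow_mul, zpow_natCast]
      simp only [h1]
      have hne : ζ ^ w ≠ 1 := by
        intro heq
        have hdvd := (hζ.zpow_eq_one_iff_dvd w).mp heq
        exact hw0 (Int.eq_zero_of_abs_lt_dvd hdvd hw)
      have hpow : (ζ ^ w) ^ N = 1 := by
        rw [← zpow_natCast, ← zpow_mul, mul_comm, zpow_mul, zpow_natCast, hζ.pow_eq_one, one_zpow]
      have := geom_sum_mul (ζ ^ w) N
      rw [hpow, sub_self] at this
      exact (mul_eq_zero.mp this).resolve_right (sub_ne_zero.mpr hne)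
  have hNc : (N : ℂ) ≠ 0 := Nat.cast_ne_zero.mpr hN0.ne'
  have hsum1 : (N : ℂ) * MvPolynomial.eval B h =
      ∑ k ∈ Finset.range N, MvPolynomial.eval (twist n (ζ ^ k) B) h := by
    have : ∀ k ∈ Finset.range N, MvPolynomial.eval (twist n (ζ ^ k) B) h = MvPolynomial.eval B h :=
      fun k _ => hinv _ (pow_ne_zero _ hζ0)
    rw [Finset.sum_congr rfl this]
    simp
  have hsum2 : ∑ k ∈ Finset.range N, MvPolynomial.eval (twist n (ζ ^ k) B) h =
      ∑ d ∈ h.support, MvPolynomial.coeff d h * (∏ p : Idx, B p ^ d p) *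
        (if weight n d = 0 then (N : ℂ) else 0) := by
    have : ∀ k ∈ Finset.range N, MvPolynomial.eval (twist n (ζ ^ k) B) h =
        ∑ d ∈ h.support, MvPolynomial.coeff d h * (ζ ^ k) ^ (weight n d) * ∏ p : Idx, B p ^ d p :=
      fun k _ => eval_twist h n _ (pow_ne_zero _ hζ0) B
    rw [Finset.sum_congr rfl this, Finset.sum_comm]
    refine Finset.sum_congr rfl fun d hd => ?_
    rw [← hgeom _ (hN d hd), Finset.mul_sum]
    refine Finset.sum_congr rfl fun k _ => ?_
    ring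
  apply mul_left_cancel₀ hNc
  rw [hsum1, hsum2, Finset.mul_sum, Finset.sum_filter]
  refine Finset.sum_congr rfl fun d _ => ?_
  split_ifs <;> ring

/-- The specific weights. -/
def wts (M : ℤ) : Fin 3 → ℤ := ![M, 1, -M - 1]

lemma balanced_of_weight_zero (d : Idx →₀ ℕ) (S : ℕ)
    (hS : ∑ p : Idx, d p ≤ S) (hw : weight (wts (2 * S + 1)) d = 0) :
    d (0, 1) + d (0, 2) = d (1, 0) + d (2, 0) ∧ d (1, 0) + d (1, 2) = d (0, 1) + d (2, 1) ∧
      d (2, 0) + d (2, 1) = d (0, 2) + d (1, 2) := by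
  simp only [Fintype.sum_prod_type, Fin.sum_univ_three] at hS
  simp only [weight, wts, Fintype.sum_prod_type, Fin.sum_univ_three] at hw
  simp only [Matrix.cons_val_zero, Matrix.cons_val_one, Matrix.cons_val] at hw
  set e00 := d (0, 0)
  set e01 := d (0, 1)
  set e02 := d (0, 2)
  set e10 := d (1, 0)
  set e11 := d (1, 1)
  set e12 := d (1, 2)
  set e20 := d (2, 0)
  set e21 := d (2, 1)
  set e22 := d (2, 2)
  -- write the weight as M * A + C
  let A : ℤ := (e01 : ℤ) + 2 * e02 - e10 + e12 - 2 * e20 - e21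
  let C' : ℤ := -(e01 : ℤ) + e02 + e10 + 2 * e12 - e20 - 2 * e21
  have hw2 : (2 * (S : ℤ) + 1) * A + C' = 0 := by
    rw [← hw]
    simp only [A, C']
    ring
  have hCle : |C'| < 2 * (S : ℤ) + 1 := by
    rw [abs_lt]
    simp only [C']
    constructor <;> omega
  have hdvd : (2 * (S : ℤ) + 1) ∣ C' := by
    refine ⟨-A, ?_⟩
    linarith
  have hC0 : C' = 0 := Int.eq_zero_of_abs_lt_dvd hdvd hCle
  have hA0 : A = 0 := by
    have : (2 * (S : ℤ) + 1) * A = 0 := by linarith
    rcases mul_eq_zero.mp this with h | h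
    · omega
    · exact h
  simp only [A, C'] at hA0 hC0
  omega

namespace SurfaceData

variable {D : SurfaceData}

lemma Cl.congr_on {φ ψ : Mat3 → ℂ} (h : D.Cl φ) (e : ∀ B, D.InW B → φ B = ψ B) : D.Cl ψ := by
  obtain ⟨α, β, hh⟩ := h
  exact ⟨α, β, fun B hB => by rw [← e B hB]; exact hh B hB⟩

/-- A polynomial function on the surface invariant under the diagonal torus is of the form
`α(x,y) + β(x,y) q`. -/
theorem Cl_of_invariant (h01 : D.a0 ≠ D.a1) (h02 : D.a0 ≠ D.a2) (h12 : D.a1 ≠ D.a2)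
    (h : MvPolynomial Idx ℂ)
    (hinv : ∀ B, D.InW B → ∀ (M : ℤ) (s : ℂ), s ≠ 0 →
      MvPolynomial.eval (twist (wts M) s fun p => B p.1 p.2) h =
        MvPolynomial.eval (fun p : Idx => B p.1 p.2) h) :
    D.Cl fun B => MvPolynomial.eval (fun p : Idx => B p.1 p.2) h := by
  classical
  set S := h.totalDegree with hS
  set n := wts (2 * S + 1) with hn
  have hmain : D.Cl fun B => ∑ d ∈ h.support.filter (fun d => weight n d = 0),
      MvPolynomial.coeff d h * ∏ p : Idx, B p.1 p.2 ^ d p := by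
    refine Cl.sum _ _ fun d hd => ?_
    obtain ⟨hd1, hd2⟩ := Finset.mem_filter.mp hd
    have hdeg : ∑ p : Idx, d p ≤ S := by
      have := MvPolynomial.le_totalDegree hd1
      rwa [Finsupp.sum_fintype _ _ (fun _ => rfl)] at this
    obtain ⟨b0, b1, b2⟩ := balanced_of_weight_zero d S hdeg hd2
    have hoff := Cl.off (D := D) h01 h02 h12 _ (d (0, 1)) (d (0, 2)) (d (1, 0)) (d (1, 2)) (d (2, 0))
      (d (2, 1)) rfl b0 b1 b2
    have hdg := (((Cl.d0 h01 h02 h12).pow h01 h02 h12 (d (0, 0))).mul h01 h02 h12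
      ((Cl.d1 h01 h02 h12).pow h01 h02 h12 (d (1, 1)))).mul h01 h02 h12
      ((Cl.d2 h01 h02 h12).pow h01 h02 h12 (d (2, 2)))
    have htot := (Cl.const (D := D) (MvPolynomial.coeff d h)).mul h01 h02 h12 (hdg.mul h01 h02 h12 hoff)
    refine htot.congr fun B => ?_
    simp only [Fintype.prod_prod_type, Fin.prod_univ_three]
    ring
  refine hmain.congr_on fun B hB => ?_
  exact (eval_eq_weight_zero h n _ (hinv B hB (2 * S + 1))).symm

end SurfaceData

end Vale.Agent.Lib.P002
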