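import Mathlib

namespace Vale.Agent.Lib.P002

abbrev SL3 := Matrix.SpecialLinearGroup (Fin 3) ℂ

abbrev Var := (Fin 3 × Fin 3) ⊕ (Fin 3 × Fin 3)

def point (A B : SL3) : Var → ℂ :=
  Sum.elim (fun p => (A : Matrix (Fin 3) (Fin 3) ℂ) p.1 p.2)
    (fun p => (B : Matrix (Fin 3) (Fin 3) ℂ) p.1 p.2)

def IsConjInvariant {R : Type} [CommRing R] [Algebra R ℂ] (f : MvPolynomial Var R) : Prop :=
  ∀ A B g : SL3,
    MvPolynomial.aeval (point (g * A * g⁻¹) (g * B * g⁻¹)) f = MvPolynomial.aeval (point A B) f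

def IsInvariantSubspace (A : SL3) (W : Submodule ℂ (Fin 3 → ℂ)) : Prop :=
  ∀ v ∈ W, (A : Matrix (Fin 3) (Fin 3) ℂ).mulVec v ∈ W

def IsSemisimplePair (A B : SL3) : Prop :=
  ∀ W : Submodule ℂ (Fin 3 → ℂ), IsInvariantSubspace A W → IsInvariantSubspace B W →
    ∃ W' : Submodule ℂ (Fin 3 → ℂ), IsCompl W W' ∧ IsInvariantSubspace A W' ∧
      IsInvariantSubspace B W'

def InDiagClass (d : Fin 3 → ℂ) (M : SL3) : Prop :=
  ∃ g : SL3, (M : Matrix (Fin 3) (Fin 3) ℂ) =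
    (g : Matrix (Fin 3) (Fin 3) ℂ) * Matrix.diagonal d * ((g⁻¹ : SL3) : Matrix (Fin 3) (Fin 3) ℂ)

def relativeCharacterSet (a b c : Fin 3 → ℂ) : Set (SL3 × SL3) :=
  {ρ | IsSemisimplePair ρ.1 ρ.2 ∧ InDiagClass a ρ.1 ∧ InDiagClass b ρ.2 ∧
    InDiagClass c (ρ.1 * ρ.2)⁻¹}

def IsIntegralPoint (L : IntermediateField ℚ ℂ) (ρ : SL3 × SL3) : Prop :=
  ∀ f : MvPolynomial Var ℤ, IsConjInvariant f →
    MvPolynomial.aeval (point ρ.1 ρ.2) f ∈ L ∧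
      IsIntegral ℤ (MvPolynomial.aeval (point ρ.1 ρ.2) f : ℂ)

end Vale.Agent.Lib.P002
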