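import Mathlib
import Vale.Agent.Lib.P002.Defs
import Vale.Agent.Lib.P002.Average

set_option linter.unusedSectionVars false

namespace Vale.Agent.Lib.P002

open Polynomial
open scoped Polynomial.Bivariate

/-- The diagonal element of `SL3`. -/
def DD (a0 a1 a2 : ℂ) (h : a0 * a1 * a2 = 1) : SL3 :=
  ⟨Matrix.diagonal ![a0, a1, a2], by
    simp [Matrix.det_diagonal, Fin.prod_univ_three, h]⟩

lemma coe_DD (a0 a1 a2 : ℂ) (h : a0 * a1 * a2 = 1) :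
    ((DD a0 a1 a2 h : SL3) : Mat3) = Matrix.diagonal ![a0, a1, a2] := rfl

lemma DD_inv (a0 a1 a2 : ℂ) (h : a0 * a1 * a2 = 1) (h' : (a1 * a2) * (a0 * a2) * (a0 * a1) = 1) :
    (DD a0 a1 a2 h)⁻¹ = DD (a1 * a2) (a0 * a2) (a0 * a1) h' := by
  symm
  apply eq_inv_of_mul_eq_one_left
  apply Matrix.SpecialLinearGroup.ext
  intro i j
  rw [Matrix.SpecialLinearGroup.coe_mul, coe_DD, coe_DD, Matrix.diagonal_mul_diagonal,
    Matrix.SpecialLinearGroup.coe_one]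
  fin_cases i <;> fin_cases j <;> simp [Matrix.diagonal] <;> linear_combination h

lemma prod_aux {a0 a1 a2 : ℂ} (h : a0 * a1 * a2 = 1) : (a1 * a2) * (a0 * a2) * (a0 * a1) = 1 := by
  calc (a1 * a2) * (a0 * a2) * (a0 * a1) = (a0 * a1 * a2) ^ 2 := by ring
    _ = 1 := by rw [h]; ring

lemma trace_conj (G M : SL3) :
    ((G * M * G⁻¹ : SL3) : Mat3).trace = (M : Mat3).trace := by
  simp only [Matrix.SpecialLinearGroup.coe_mul]
  rw [Matrix.trace_mul_comm]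
  rw [← Matrix.mul_assoc]
  have : ((G⁻¹ : SL3) : Mat3) * (G : Mat3) = 1 := by
    rw [← Matrix.SpecialLinearGroup.coe_mul]; simp
  rw [this, Matrix.one_mul]

lemma coe_inv_diag (M : SL3) :
    ((M⁻¹ : SL3) : Mat3) 0 0 = cof0 (M : Mat3) ∧ ((M⁻¹ : SL3) : Mat3) 1 1 = cof1 (M : Mat3) ∧
      ((M⁻¹ : SL3) : Mat3) 2 2 = cof2 (M : Mat3) := by
  simp only [Matrix.SpecialLinearGroup.coe_inv, Matrix.adjugate_fin_three, cof0, cof1, cof2]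
  simp

lemma trace_DD_mul (a0 a1 a2 : ℂ) (h : a0 * a1 * a2 = 1) (M : SL3) :
    ((DD a0 a1 a2 h * M : SL3) : Mat3).trace =
      a0 * (M : Mat3) 0 0 + a1 * (M : Mat3) 1 1 + a2 * (M : Mat3) 2 2 := by
  rw [Matrix.SpecialLinearGroup.coe_mul, coe_DD, Matrix.trace_fin_three]
  simp [Matrix.diagonal_mul]

section facts
variable {a0 a1 a2 : ℂ} {ha : a0 * a1 * a2 = 1} {G A B : SL3} (hG : G * A * G⁻¹ = DD a0 a1 a2 ha)

include hG

lemma facts_trb : ((G * B * G⁻¹ : SL3) : Mat3) 0 0 + ((G * B * G⁻¹ : SL3) : Mat3) 1 1 +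
    ((G * B * G⁻¹ : SL3) : Mat3) 2 2 = (B : Mat3).trace := by
  rw [← trace_conj G B, Matrix.trace_fin_three]

lemma facts_tre : a0 * ((G * B * G⁻¹ : SL3) : Mat3) 0 0 + a1 * ((G * B * G⁻¹ : SL3) : Mat3) 1 1 +
    a2 * ((G * B * G⁻¹ : SL3) : Mat3) 2 2 = ((A * B : SL3) : Mat3).trace := by
  have e : G * (A * B) * G⁻¹ = DD a0 a1 a2 ha * (G * B * G⁻¹) := by
    rw [← hG]; group
  rw [← trace_conj G (A * B), e, trace_DD_mul]

lemma facts_try : (a1 * a2) * ((G * B * G⁻¹ : SL3) : Mat3) 0 0 +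
    (a0 * a2) * ((G * B * G⁻¹ : SL3) : Mat3) 1 1 +
    (a0 * a1) * ((G * B * G⁻¹ : SL3) : Mat3) 2 2 = ((A⁻¹ * B : SL3) : Mat3).trace := by
  have e : G * (A⁻¹ * B) * G⁻¹ = DD (a1 * a2) (a0 * a2) (a0 * a1) (prod_aux ha) * (G * B * G⁻¹) := by
    rw [← DD_inv a0 a1 a2 ha (prod_aux ha), ← hG]; group
  rw [← trace_conj G (A⁻¹ * B), e, trace_DD_mul]

lemma facts_trc : cof0 ((G * B * G⁻¹ : SL3) : Mat3) + cof1 ((G * B * G⁻¹ : SL3) : Mat3) +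
    cof2 ((G * B * G⁻¹ : SL3) : Mat3) = ((B⁻¹ : SL3) : Mat3).trace := by
  obtain ⟨h0, h1, h2⟩ := coe_inv_diag (G * B * G⁻¹)
  have e : G * B⁻¹ * G⁻¹ = (G * B * G⁻¹)⁻¹ := by group
  rw [← h0, ← h1, ← h2, ← trace_conj G B⁻¹, e, Matrix.trace_fin_three]

lemma facts_trx : a0 * cof0 ((G * B * G⁻¹ : SL3) : Mat3) + a1 * cof1 ((G * B * G⁻¹ : SL3) : Mat3) +
    a2 * cof2 ((G * B * G⁻¹ : SL3) : Mat3) = ((A * B⁻¹ : SL3) : Mat3).trace := by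
  obtain ⟨h0, h1, h2⟩ := coe_inv_diag (G * B * G⁻¹)
  have e : G * (A * B⁻¹) * G⁻¹ = DD a0 a1 a2 ha * (G * B * G⁻¹)⁻¹ := by
    rw [← hG]; group
  rw [← h0, ← h1, ← h2, ← trace_conj G (A * B⁻¹), e, trace_DD_mul]

lemma facts_trd : (a1 * a2) * cof0 ((G * B * G⁻¹ : SL3) : Mat3) +
    (a0 * a2) * cof1 ((G * B * G⁻¹ : SL3) : Mat3) +
    (a0 * a1) * cof2 ((G * B * G⁻¹ : SL3) : Mat3) = (((A * B)⁻¹ : SL3) : Mat3).trace := by
  obtain ⟨h0, h1, h2⟩ := coe_inv_diag (G * B * G⁻¹)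
  have e : A⁻¹ * B⁻¹ = G⁻¹ * (DD (a1 * a2) (a0 * a2) (a0 * a1) (prod_aux ha) * (G * B * G⁻¹)⁻¹) * G := by
    rw [← DD_inv a0 a1 a2 ha (prod_aux ha), ← hG]; group
  have e2 : ((A * B)⁻¹ : SL3) = B⁻¹ * A⁻¹ := by group
  have e3 : ((B⁻¹ * A⁻¹ : SL3) : Mat3).trace = ((A⁻¹ * B⁻¹ : SL3) : Mat3).trace := by
    rw [Matrix.SpecialLinearGroup.coe_mul, Matrix.SpecialLinearGroup.coe_mul, Matrix.trace_mul_comm]
  rw [e2, e3, e, ← h0, ← h1, ← h2, ← trace_DD_mul]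
  have e4 := trace_conj G⁻¹ (DD (a1 * a2) (a0 * a2) (a0 * a1) (prod_aux ha) * (G * B * G⁻¹)⁻¹)
  rw [inv_inv] at e4
  rw [e4]

end facts

/-- Constructing the data of the surface from a pair in the slice. -/
lemma inW_conj {a0 a1 a2 : ℂ} {ha : a0 * a1 * a2 = 1} {G A B : SL3}
    (hG : G * A * G⁻¹ = DD a0 a1 a2 ha) :
    (SurfaceData.mk a0 a1 a2 (B : Mat3).trace ((A * B : SL3) : Mat3).trace
      ((B⁻¹ : SL3) : Mat3).trace (((A * B)⁻¹ : SL3) : Mat3).trace).InW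
      ((G * B * G⁻¹ : SL3) : Mat3) :=
  { det := (G * B * G⁻¹).2
    trb := facts_trb hG
    tre := facts_tre hG
    trc := facts_trc hG
    trd := facts_trd hG }

end Vale.Agent.Lib.P002
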