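import Mathlib
import Vale.Agent.Lib.P002.Group

set_option linter.unusedSectionVars false
set_option linter.unusedVariables false
set_option linter.unusedSimpArgs false
set_option linter.unnecessarySeqFocus false

namespace Vale.Agent.Lib.P002

open Polynomial
open scoped Polynomial.Bivariate

/-- The torus chart: first matrix, upper triangular. -/
noncomputable def chartA (a0 a1 a2 h l u v : ℂ) : Mat3 :=
  !![a0, (1 + l * u) * a1 - a0 * h * (1 + u) / v, a0 * h * u + a2 - (1 + l * u) * a1 * v;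
     0, a1, a2 - a1 * v;
     0, 0, a2]

/-- The torus chart: second matrix, lower triangular. -/
noncomputable def chartB (b0 b1 b2 h l u v : ℂ) : Mat3 :=
  !![b0, 0, 0;
     b0 * v / h - b1, b1, 0;
     b2 / (l * u) + b0 / h - (1 + u) * b1 / (u * v),
       (1 + u) * b1 / (u * v) - (1 + l * u) * b2 / (l * u), b2]

/-- Upper unitriangular matrix. -/
def upG (g01 g02 g12 : ℂ) : Mat3 := !![1, g01, g02; 0, 1, g12; 0, 0, 1]

lemma upG_det (g01 g02 g12 : ℂ) : (upG g01 g02 g12).det = 1 := by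
  simp [upG, Matrix.det_fin_three]

lemma upG_inv (g01 g02 g12 : ℂ) :
    upG g01 g02 g12 * upG (-g01) (g01 * g12 - g02) (-g12) = 1 := by
  ext i j
  fin_cases i <;> fin_cases j <;> simp [upG, Matrix.mul_apply, Fin.sum_univ_three] <;> ring

lemma upG_inv' (g01 g02 g12 : ℂ) :
    upG (-g01) (g01 * g12 - g02) (-g12) * upG g01 g02 g12 = 1 := by
  ext i j
  fin_cases i <;> fin_cases j <;> simp [upG, Matrix.mul_apply, Fin.sum_univ_three] <;> ring

section chart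
variable {a0 a1 a2 b0 b1 b2 h l u v : ℂ}

lemma det_chartA (ha : a0 * a1 * a2 = 1) : (chartA a0 a1 a2 h l u v).det = 1 := by
  simp [chartA, Matrix.det_fin_three]
  linear_combination ha

lemma det_chartB (hb : b0 * b1 * b2 = 1) : (chartB b0 b1 b2 h l u v).det = 1 := by
  simp [chartB, Matrix.det_fin_three]
  linear_combination hb

lemma trace_chartB : (chartB b0 b1 b2 h l u v).trace = b0 + b1 + b2 := by
  simp [chartB, Matrix.trace_fin_three]

lemma trace_adj_chartB :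
    (Matrix.adjugate (chartB b0 b1 b2 h l u v)).trace = b1 * b2 + b0 * b2 + b0 * b1 := by
  simp [chartB, Matrix.trace_fin_three, Matrix.adjugate_fin_three]

lemma trace_chartA : (chartA a0 a1 a2 h l u v).trace = a0 + a1 + a2 := by
  simp [chartA, Matrix.trace_fin_three]

lemma trace_adj_chartA :
    (Matrix.adjugate (chartA a0 a1 a2 h l u v)).trace = a1 * a2 + a0 * a2 + a0 * a1 := by
  simp [chartA, Matrix.trace_fin_three, Matrix.adjugate_fin_three]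

lemma trace_chartAB (hh : h ≠ 0) (hl : l ≠ 0) (hu : u ≠ 0) (hv : v ≠ 0) :
    (chartA a0 a1 a2 h l u v * chartB b0 b1 b2 h l u v).trace =
      a2 * b0 / h + a1 * b1 * l + a0 * b2 * h / l := by
  simp [chartA, chartB, Matrix.trace_fin_three, Matrix.mul_apply, Fin.sum_univ_three]
  field_simp
  ring

lemma trace_chartAB_adj (hh : h ≠ 0) (hl : l ≠ 0) (hu : u ≠ 0) (hv : v ≠ 0) :
    (Matrix.adjugate (chartB b0 b1 b2 h l u v) * Matrix.adjugate (chartA a0 a1 a2 h l u v)).trace =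
      a0 * a1 * b1 * b2 * h + a0 * a2 * b0 * b2 / l + a1 * a2 * b0 * b1 * l / h := by
  simp [chartA, chartB, Matrix.trace_fin_three, Matrix.mul_apply, Fin.sum_univ_three,
    Matrix.adjugate_fin_three]
  field_simp
  ring

end chart

/-- Auxiliary polynomials in `r = u⁻¹`, `s = v⁻¹`: the coordinate `x` is `Xt r s / (r s²)`. -/
noncomputable def Xt (a0 a1 a2 b0 b1 b2 h l r s : ℂ) : ℂ :=
  (a0 * b1 * b2 + a1 * b0 * b2 + a2 * b0 * b1) * r * s ^ 2
  - b2 * ((r + l) * a1 - a0 * h * s * (1 + r)) * (b0 / h - b1 * s) * s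
  - b0 * (a2 * s - a1) * ((r + 1) * b1 * s - (r / l + 1) * b2) * r * s
  + (a0 * h * s + a2 * r * s - (r + l) * a1)
    * ((b0 / h - b1 * s) * ((r + 1) * b1 * s - (r / l + 1) * b2)
        - b1 * s * (b2 * r / l + b0 / h - (1 + r) * b1 * s))

/-- Auxiliary polynomials in `r = u⁻¹`, `s = v⁻¹`: the coordinate `y` is `Yt r s / (r s)`. -/
noncomputable def Yt (a0 a1 a2 b0 b1 b2 h l r s : ℂ) : ℂ :=
  (b0 * a1 * a2 + b1 * a0 * a2 + b2 * a0 * a1) * r * s
  - a2 * ((r + l) * a1 - a0 * h * s * (1 + r)) * (b0 / h - b1 * s)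
  - a0 * (a2 * s - a1) * ((r + 1) * b1 * s - (r / l + 1) * b2) * r
  + (l * a1 * a2 + a0 * a1 * h * r - a0 * a2 * h * s * (r + 1))
    * (b2 * r / l + b0 / h - (1 + r) * b1 * s) * s

section coords
variable {a0 a1 a2 b0 b1 b2 h l r s : ℂ}

lemma trace_x_chart (ha : a0 * a1 * a2 = 1) (hb : b0 * b1 * b2 = 1)
    (hh : h ≠ 0) (hl : l ≠ 0) (hr : r ≠ 0) (hs : s ≠ 0) :
    (chartA a0 a1 a2 h l r⁻¹ s⁻¹ * Matrix.adjugate (chartB b0 b1 b2 h l r⁻¹ s⁻¹)).trace =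
      Xt a0 a1 a2 b0 b1 b2 h l r s / (r * s ^ 2) := by
  simp [chartA, chartB, Matrix.trace_fin_three, Matrix.mul_apply, Fin.sum_univ_three,
    Matrix.adjugate_fin_three, Xt]
  field_simp
  ring

lemma trace_y_chart (ha : a0 * a1 * a2 = 1) (hb : b0 * b1 * b2 = 1)
    (hh : h ≠ 0) (hl : l ≠ 0) (hr : r ≠ 0) (hs : s ≠ 0) :
    (Matrix.adjugate (chartA a0 a1 a2 h l r⁻¹ s⁻¹) * chartB b0 b1 b2 h l r⁻¹ s⁻¹).trace =
      Yt a0 a1 a2 b0 b1 b2 h l r s / (r * s) := by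
  simp [chartA, chartB, Matrix.trace_fin_three, Matrix.mul_apply, Fin.sum_univ_three,
    Matrix.adjugate_fin_three, Yt]
  field_simp
  ring

end coords

/-- `Xt` along the curve `r = t^(k+1)`, `s = t`, as a polynomial in `t`. -/
noncomputable def XtP (a0 a1 a2 b0 b1 b2 h l : ℂ) (k : ℕ) : ℂ[X] :=
  let r : ℂ[X] := X ^ (k + 1)
  let s : ℂ[X] := X
  C (a0 * b1 * b2 + a1 * b0 * b2 + a2 * b0 * b1) * r * s ^ 2
  - C b2 * ((r + C l) * C a1 - C (a0 * h) * s * (1 + r)) * (C (b0 / h) - C b1 * s) * s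
  - C b0 * (C a2 * s - C a1) * ((r + 1) * C b1 * s - (r * C l⁻¹ + 1) * C b2) * r * s
  + (C (a0 * h) * s + C a2 * r * s - (r + C l) * C a1)
    * ((C (b0 / h) - C b1 * s) * ((r + 1) * C b1 * s - (r * C l⁻¹ + 1) * C b2)
        - C b1 * s * (C b2 * r * C l⁻¹ + C (b0 / h) - (1 + r) * C b1 * s))

/-- `Yt` along the curve `r = t^(k+1)`, `s = t`, as a polynomial in `t`. -/
noncomputable def YtP (a0 a1 a2 b0 b1 b2 h l : ℂ) (k : ℕ) : ℂ[X] :=
  let r : ℂ[X] := X ^ (k + 1)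
  let s : ℂ[X] := X
  C (b0 * a1 * a2 + b1 * a0 * a2 + b2 * a0 * a1) * r * s
  - C a2 * ((r + C l) * C a1 - C (a0 * h) * s * (1 + r)) * (C (b0 / h) - C b1 * s)
  - C a0 * (C a2 * s - C a1) * ((r + 1) * C b1 * s - (r * C l⁻¹ + 1) * C b2) * r
  + (C (l * a1 * a2) + C (a0 * a1 * h) * r - C (a0 * a2 * h) * s * (r + 1))
    * (C b2 * r * C l⁻¹ + C (b0 / h) - (1 + r) * C b1 * s) * s

lemma XtP_eval (a0 a1 a2 b0 b1 b2 h l : ℂ) (k : ℕ) (t : ℂ) :
    (XtP a0 a1 a2 b0 b1 b2 h l k).eval t = Xt a0 a1 a2 b0 b1 b2 h l (t ^ (k + 1)) t := by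
  simp [XtP, Xt]
  ring

lemma YtP_eval (a0 a1 a2 b0 b1 b2 h l : ℂ) (k : ℕ) (t : ℂ) :
    (YtP a0 a1 a2 b0 b1 b2 h l k).eval t = Yt a0 a1 a2 b0 b1 b2 h l (t ^ (k + 1)) t := by
  simp [YtP, Yt]
  ring

lemma XtP_eval0 (a0 a1 a2 b0 b1 b2 h l : ℂ) (k : ℕ) :
    (XtP a0 a1 a2 b0 b1 b2 h l k).eval 0 = l * a1 * b0 * b2 / h := by
  rw [XtP_eval]
  simp [Xt]
  ring

lemma YtP_eval0 (a0 a1 a2 b0 b1 b2 h l : ℂ) (k : ℕ) :
    (YtP a0 a1 a2 b0 b1 b2 h l k).eval 0 = - (l * a1 * a2 * b0 / h) := by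
  rw [YtP_eval]
  simp [Yt]
  ring

/-- Algebraic independence of the two coordinates along the chart. -/
theorem chart_indep {a0 a1 a2 b0 b1 b2 h l : ℂ} (ha : a0 * a1 * a2 = 1) (hb : b0 * b1 * b2 = 1)
    (hh : h ≠ 0) (hl : l ≠ 0) (P : ℂ[X][Y])
    (hP : ∀ u v : ℂ, u ≠ 0 → v ≠ 0 → P.evalEval
      (chartA a0 a1 a2 h l u v * Matrix.adjugate (chartB b0 b1 b2 h l u v)).trace
      (Matrix.adjugate (chartA a0 a1 a2 h l u v) * chartB b0 b1 b2 h l u v).trace = 0) :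
    P = 0 := by
  have ha1 : a1 ≠ 0 := by
    rintro rfl; simp at ha
  have ha2 : a2 ≠ 0 := by
    rintro rfl; simp at ha
  have hb0 : b0 ≠ 0 := by
    rintro rfl; simp at hb
  have hb2 : b2 ≠ 0 := by
    rintro rfl; simp at hb
  obtain ⟨k, hk⟩ : ∃ k, ∀ j, (P.coeff j).natDegree < k + 2 := by
    refine ⟨P.support.sup fun j => (P.coeff j).natDegree, fun j => ?_⟩
    by_cases hj : j ∈ P.support
    · have := Finset.le_sup (f := fun j => (P.coeff j).natDegree) hj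
      omega
    · rw [Polynomial.notMem_support_iff.mp hj]
      simp
  refine eq_zero_of_vanish_curve P k hk (XtP a0 a1 a2 b0 b1 b2 h l k) (YtP a0 a1 a2 b0 b1 b2 h l k)
    ?_ ?_ ?_
  · rw [XtP_eval0]
    exact div_ne_zero (mul_ne_zero (mul_ne_zero (mul_ne_zero hl ha1) hb0) hb2) hh
  · rw [YtP_eval0]
    exact neg_ne_zero.mpr (div_ne_zero (mul_ne_zero (mul_ne_zero (mul_ne_zero hl ha1) ha2) hb0) hh)
  · intro t ht
    have hr : t ^ (k + 1) ≠ 0 := pow_ne_zero _ ht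
    have := hP (t ^ (k + 1))⁻¹ t⁻¹ (inv_ne_zero hr) (inv_ne_zero ht)
    rw [trace_x_chart ha hb hh hl hr ht, trace_y_chart ha hb hh hl hr ht] at this
    rw [XtP_eval, YtP_eval]
    have e1 : t ^ (k + 1) * t ^ 2 = t ^ (k + 3) := by ring
    have e2 : t ^ (k + 1) * t = t ^ (k + 2) := by ring
    rwa [e1, e2] at this

end Vale.Agent.Lib.P002
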