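import Mathlib
import Vale.Agent.Lib.P002.Chart

set_option linter.unusedSectionVars false
set_option linter.unusedVariables false
set_option linter.unusedSimpArgs false
set_option linter.unnecessarySeqFocus false

namespace Vale.Agent.Lib.P002

open Polynomial
open scoped Polynomial.Bivariate

/-! ### Specialising the first matrix -/

/-- Specialise an `18`-variable polynomial at the diagonal matrix in the first block. -/
noncomputable def specialize (d : Mat3) (f : MvPolynomial Var ℂ) : MvPolynomial Idx ℂ :=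
  MvPolynomial.aeval (Sum.elim (fun p : Idx => MvPolynomial.C (d p.1 p.2))
    (fun p : Idx => MvPolynomial.X p)) f

lemma eval_specialize (d : Mat3) (f : MvPolynomial Var ℂ) (x : Idx → ℂ) :
    MvPolynomial.eval x (specialize d f) =
      MvPolynomial.aeval (Sum.elim (fun p : Idx => d p.1 p.2) x) f := by
  induction f using MvPolynomial.induction_on with
  | C c => simp [specialize]
  | add p q hp hq =>
    simp only [specialize, map_add] at *
    rw [hp, hq]
  | mul_X p s hp =>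
    simp only [specialize, map_mul, MvPolynomial.aeval_X] at *
    rw [hp]
    cases s <;> simp

lemma point_eq_elim (A B : SL3) :
    point A B = Sum.elim (fun p : Idx => (A : Mat3) p.1 p.2) (fun p : Idx => (B : Mat3) p.1 p.2) :=
  rfl

/-- The one parameter diagonal subgroup. -/
noncomputable def tdiag (M : ℤ) (s : ℂ) (hs : s ≠ 0) : SL3 :=
  ⟨Matrix.diagonal fun i => s ^ (wts M i), by
    rw [Matrix.det_diagonal, Fin.prod_univ_three]
    simp only [wts, Matrix.cons_val_zero, Matrix.cons_val_one, Matrix.cons_val]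
    rw [← zpow_add₀ hs, ← zpow_add₀ hs]
    simp⟩

noncomputable def tdiag' (M : ℤ) (s : ℂ) (hs : s ≠ 0) : SL3 :=
  ⟨Matrix.diagonal fun i => s ^ (-(wts M i)), by
    rw [Matrix.det_diagonal, Fin.prod_univ_three]
    simp only [wts, Matrix.cons_val_zero, Matrix.cons_val_one, Matrix.cons_val]
    rw [← zpow_add₀ hs, ← zpow_add₀ hs]
    simp⟩

lemma tdiag_inv (M : ℤ) (s : ℂ) (hs : s ≠ 0) : (tdiag M s hs)⁻¹ = tdiag' M s hs := by
  symm
  apply eq_inv_of_mul_eq_one_left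
  apply Matrix.SpecialLinearGroup.ext
  intro i j
  rw [Matrix.SpecialLinearGroup.coe_mul]
  show (Matrix.diagonal _ * Matrix.diagonal _ : Mat3) i j = _
  rw [Matrix.diagonal_mul_diagonal, Matrix.SpecialLinearGroup.coe_one, Matrix.one_apply,
    Matrix.diagonal_apply]
  by_cases hij : i = j
  · subst hij
    simp only [if_true]
    rw [← zpow_add₀ hs]
    simp
  · simp [hij]

lemma tdiag_conj_apply (M : ℤ) (s : ℂ) (hs : s ≠ 0) (B : SL3) (i j : Fin 3) :
    ((tdiag M s hs * B * (tdiag M s hs)⁻¹ : SL3) : Mat3) i j =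
      s ^ (wts M i) * (B : Mat3) i j * s ^ (-(wts M j)) := by
  rw [tdiag_inv, Matrix.SpecialLinearGroup.coe_mul, Matrix.SpecialLinearGroup.coe_mul]
  show ((Matrix.diagonal _ * (B : Mat3)) * Matrix.diagonal _ : Mat3) i j = _
  rw [Matrix.mul_diagonal, Matrix.diagonal_mul]

lemma tdiag_conj_DD (M : ℤ) (s : ℂ) (hs : s ≠ 0) {a0 a1 a2 : ℂ} (ha : a0 * a1 * a2 = 1) :
    tdiag M s hs * DD a0 a1 a2 ha * (tdiag M s hs)⁻¹ = DD a0 a1 a2 ha := by
  apply Matrix.SpecialLinearGroup.ext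
  intro i j
  rw [tdiag_conj_apply, coe_DD, Matrix.diagonal_apply]
  by_cases hij : i = j
  · subst hij
    simp only [if_true]
    rw [mul_comm (s ^ wts M i), mul_assoc, ← zpow_add₀ hs]
    simp
  · simp [hij]

/-- An invariant polynomial, restricted to the slice `A = diag(a)`, is of the form
`α(x,y) + β(x,y) q` on the surface. -/
theorem exists_form {D : SurfaceData} (ha : D.a0 * D.a1 * D.a2 = 1)
    (h01 : D.a0 ≠ D.a1) (h02 : D.a0 ≠ D.a2) (h12 : D.a1 ≠ D.a2)
    (f : MvPolynomial Var ℂ) (hf : IsConjInvariant f) :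
    ∃ α β : ℂ[X][Y], ∀ B : SL3, D.InW (B : Mat3) →
      MvPolynomial.aeval (point (DD D.a0 D.a1 D.a2 ha) B) f =
        α.evalEval (D.xCoord (B : Mat3)) (D.yCoord (B : Mat3)) +
          β.evalEval (D.xCoord (B : Mat3)) (D.yCoord (B : Mat3)) * qc (B : Mat3) := by
  set dd : Mat3 := ((DD D.a0 D.a1 D.a2 ha : SL3) : Mat3) with hdd
  have hCl := SurfaceData.Cl_of_invariant (D := D) h01 h02 h12 (specialize dd f) (by
    intro B hB M s hs
    rw [eval_specialize, eval_specialize]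
    let BS : SL3 := ⟨B, hB.det⟩
    have h1 := hf (DD D.a0 D.a1 D.a2 ha) BS (tdiag M s hs)
    rw [tdiag_conj_DD] at h1
    have e1 : point (DD D.a0 D.a1 D.a2 ha) (tdiag M s hs * BS * (tdiag M s hs)⁻¹) =
        Sum.elim (fun p : Idx => dd p.1 p.2) (twist (wts M) s fun p => B p.1 p.2) := by
      rw [point_eq_elim]
      congr 1
      funext p
      rw [tdiag_conj_apply]
      rfl
    have e2 : point (DD D.a0 D.a1 D.a2 ha) BS =
        Sum.elim (fun p : Idx => dd p.1 p.2) (fun p : Idx => B p.1 p.2) := rfl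
    rw [← e1, ← e2]
    exact h1)
  obtain ⟨α, β, h⟩ := hCl
  refine ⟨α, β, fun B hB => ?_⟩
  have := h (B : Mat3) hB
  beta_reduce at this
  rw [eval_specialize] at this
  exact this

/-! ### The chart in the slice -/

/-- Parameters of the chart. -/
structure CP where
  a0 : ℂ
  a1 : ℂ
  a2 : ℂ
  b0 : ℂ
  b1 : ℂ
  b2 : ℂ
  h : ℂ
  l : ℂ
  ha : a0 * a1 * a2 = 1
  hb : b0 * b1 * b2 = 1
  hh : h ≠ 0
  hl : l ≠ 0
  h01 : a0 ≠ a1
  h02 : a0 ≠ a2
  h12 : a1 ≠ a2

namespace CP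

variable (c : CP)

noncomputable def mA (u v : ℂ) : Mat3 := chartA c.a0 c.a1 c.a2 c.h c.l u v
noncomputable def mB (u v : ℂ) : Mat3 := chartB c.b0 c.b1 c.b2 c.h c.l u v

noncomputable def A (u v : ℂ) : SL3 := ⟨c.mA u v, det_chartA c.ha⟩
noncomputable def B (u v : ℂ) : SL3 := ⟨c.mB u v, det_chartB c.hb⟩

noncomputable def g01 (u v : ℂ) : ℂ := c.mA u v 0 1 / (c.a1 - c.a0)
noncomputable def g12 (u v : ℂ) : ℂ := c.mA u v 1 2 / (c.a2 - c.a1)
noncomputable def g02 (u v : ℂ) : ℂ := (c.mA u v 0 1 * c.g12 u v + c.mA u v 0 2) / (c.a2 - c.a0)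

noncomputable def mGi (u v : ℂ) : Mat3 :=
  upG (- c.g01 u v) (c.g01 u v * c.g12 u v - c.g02 u v) (- c.g12 u v)
noncomputable def mG (u v : ℂ) : Mat3 := upG (c.g01 u v) (c.g02 u v) (c.g12 u v)

noncomputable def G (u v : ℂ) : SL3 := ⟨c.mGi u v, upG_det _ _ _⟩
noncomputable def G' (u v : ℂ) : SL3 := ⟨c.mG u v, upG_det _ _ _⟩

lemma G_inv (u v : ℂ) : (c.G u v)⁻¹ = c.G' u v := by
  symm
  apply eq_inv_of_mul_eq_one_left
  apply Matrix.SpecialLinearGroup.ext
  intro i j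
  rw [Matrix.SpecialLinearGroup.coe_mul]
  show (c.mG u v * c.mGi u v) i j = _
  rw [mG, mGi, upG_inv]
  rfl

lemma mA_eq (u v : ℂ) : c.mA u v =
    !![c.a0, c.mA u v 0 1, c.mA u v 0 2; 0, c.a1, c.mA u v 1 2; 0, 0, c.a2] := by
  ext i j
  fin_cases i <;> fin_cases j <;> simp [mA, chartA]

lemma mGi_A_mG (u v : ℂ) : c.mGi u v * c.mA u v * c.mG u v = Matrix.diagonal ![c.a0, c.a1, c.a2] := by
  have h10 : c.a1 - c.a0 ≠ 0 := sub_ne_zero.mpr c.h01.symm
  have h21 : c.a2 - c.a1 ≠ 0 := sub_ne_zero.mpr c.h12.symm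
  have h20 : c.a2 - c.a0 ≠ 0 := sub_ne_zero.mpr c.h02.symm
  rw [mA_eq c u v]
  simp only [mGi, mG, g01, g02, g12, upG]
  generalize c.mA u v 0 1 = m
  generalize c.mA u v 0 2 = n
  generalize c.mA u v 1 2 = o
  ext i j
  fin_cases i <;> fin_cases j <;>
    simp [Matrix.mul_apply, Fin.sum_univ_three, Matrix.diagonal] <;> field_simp <;> ring

lemma conj_A (u v : ℂ) : c.G u v * c.A u v * (c.G u v)⁻¹ = DD c.a0 c.a1 c.a2 c.ha := by
  apply Matrix.SpecialLinearGroup.ext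
  intro i j
  rw [G_inv, Matrix.SpecialLinearGroup.coe_mul, Matrix.SpecialLinearGroup.coe_mul]
  show (c.mGi u v * c.mA u v * c.mG u v) i j = _
  rw [mGi_A_mG, coe_DD]

/-- The second matrix in the slice. -/
noncomputable def Bt (u v : ℂ) : SL3 := c.G u v * c.B u v * (c.G u v)⁻¹

lemma coe_Bt (u v : ℂ) : ((c.Bt u v : SL3) : Mat3) = c.mGi u v * c.mB u v * c.mG u v := by
  rw [Bt, G_inv, Matrix.SpecialLinearGroup.coe_mul, Matrix.SpecialLinearGroup.coe_mul]
  rfl

/-- Constants of the surface attached to the chart. -/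
noncomputable def D : SurfaceData where
  a0 := c.a0
  a1 := c.a1
  a2 := c.a2
  τb := c.b0 + c.b1 + c.b2
  τe := c.a2 * c.b0 / c.h + c.a1 * c.b1 * c.l + c.a0 * c.b2 * c.h / c.l
  σb := c.b1 * c.b2 + c.b0 * c.b2 + c.b0 * c.b1
  σe := c.a0 * c.a1 * c.b1 * c.b2 * c.h + c.a0 * c.a2 * c.b0 * c.b2 / c.l +
    c.a1 * c.a2 * c.b0 * c.b1 * c.l / c.h

lemma trace_B (u v : ℂ) : ((c.B u v : SL3) : Mat3).trace = c.b0 + c.b1 + c.b2 :=
  trace_chartB

lemma trace_Binv (u v : ℂ) :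
    (((c.B u v)⁻¹ : SL3) : Mat3).trace = c.b1 * c.b2 + c.b0 * c.b2 + c.b0 * c.b1 := by
  rw [Matrix.SpecialLinearGroup.coe_inv]
  exact trace_adj_chartB

lemma trace_AB (u v : ℂ) (hu : u ≠ 0) (hv : v ≠ 0) :
    ((c.A u v * c.B u v : SL3) : Mat3).trace =
      c.a2 * c.b0 / c.h + c.a1 * c.b1 * c.l + c.a0 * c.b2 * c.h / c.l := by
  rw [Matrix.SpecialLinearGroup.coe_mul]
  exact trace_chartAB c.hh c.hl hu hv

lemma trace_ABinv (u v : ℂ) (hu : u ≠ 0) (hv : v ≠ 0) :
    (((c.A u v * c.B u v)⁻¹ : SL3) : Mat3).trace =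
      c.a0 * c.a1 * c.b1 * c.b2 * c.h + c.a0 * c.a2 * c.b0 * c.b2 / c.l +
    c.a1 * c.a2 * c.b0 * c.b1 * c.l / c.h := by
  rw [mul_inv_rev, Matrix.SpecialLinearGroup.coe_mul, Matrix.SpecialLinearGroup.coe_inv,
    Matrix.SpecialLinearGroup.coe_inv]
  exact trace_chartAB_adj c.hh c.hl hu hv

lemma inW_Bt (u v : ℂ) (hu : u ≠ 0) (hv : v ≠ 0) : c.D.InW ((c.Bt u v : SL3) : Mat3) := by
  have h := inW_conj (B := c.B u v) (c.conj_A u v)
  rw [trace_B, trace_Binv, trace_AB c u v hu hv, trace_ABinv c u v hu hv] at h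
  exact h

lemma xCoord_Bt (u v : ℂ) : c.D.xCoord ((c.Bt u v : SL3) : Mat3) =
    (c.mA u v * Matrix.adjugate (c.mB u v)).trace := by
  have h := facts_trx (B := c.B u v) (c.conj_A u v)
  rw [Matrix.SpecialLinearGroup.coe_mul, Matrix.SpecialLinearGroup.coe_inv] at h
  exact h

lemma yCoord_Bt (u v : ℂ) : c.D.yCoord ((c.Bt u v : SL3) : Mat3) =
    (Matrix.adjugate (c.mA u v) * c.mB u v).trace := by
  have h := facts_try (B := c.B u v) (c.conj_A u v)
  rw [Matrix.SpecialLinearGroup.coe_mul, Matrix.SpecialLinearGroup.coe_inv] at h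
  exact h

end CP

/-! ### Laurent property of the chart -/

lemma IsLaurent.congr {φ ψ : ℂ → ℂ → ℂ} (h : IsLaurent φ)
    (e : ∀ u v : ℂ, u ≠ 0 → v ≠ 0 → φ u v = ψ u v) : IsLaurent ψ := by
  obtain ⟨P, m, n, hP⟩ := h
  exact ⟨P, m, n, fun u v hu hv => by rw [← e u v hu hv]; exact hP u v hu hv⟩

/-- Matrix valued Laurent functions. -/
def MatL (M : ℂ → ℂ → Mat3) : Prop := ∀ i j, IsLaurent fun u v => M u v i j

lemma MatL.mul {M N : ℂ → ℂ → Mat3} (h1 : MatL M) (h2 : MatL N) : MatL fun u v => M u v * N u v := by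
  intro i j
  have := (((h1 i 0).mul (h2 0 j)).add ((h1 i 1).mul (h2 1 j))).add ((h1 i 2).mul (h2 2 j))
  refine this.congr fun u v _ _ => ?_
  simp only [Matrix.mul_apply, Fin.sum_univ_three]

lemma MatL.upG {f1 f2 f3 : ℂ → ℂ → ℂ} (h1 : IsLaurent f1) (h2 : IsLaurent f2) (h3 : IsLaurent f3) :
    MatL fun u v => Vale.Agent.Lib.P002.upG (f1 u v) (f2 u v) (f3 u v) := by
  intro i j
  fin_cases i <;> fin_cases j
  · exact IsLaurent.const 1
  · exact h1
  · exact h2
  · exact IsLaurent.const 0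
  · exact IsLaurent.const 1
  · exact h3
  · exact IsLaurent.const 0
  · exact IsLaurent.const 0
  · exact IsLaurent.const 1

lemma MatL_chartA (a0 a1 a2 h l : ℂ) : MatL fun u v => chartA a0 a1 a2 h l u v := by
  intro i j
  have c := IsLaurent.const
  have fst := IsLaurent.fst
  have snd := IsLaurent.snd
  have ifst := IsLaurent.inv_fst
  have isnd := IsLaurent.inv_snd
  fin_cases i <;> fin_cases j
  · exact c a0
  · have := (((c 1).add ((c l).mul fst)).mul (c a1)).sub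
      ((((c (a0 * h)).mul ((c 1).add fst))).mul isnd)
    refine this.congr fun u v _ _ => ?_
    simp [chartA]
    ring
  · have := ((((c (a0 * h)).mul fst).add (c a2))).sub
      ((((c 1).add ((c l).mul fst)).mul (c a1)).mul snd)
    refine this.congr fun u v _ _ => ?_
    simp [chartA]
  · exact c 0
  · exact c a1
  · have := (c a2).sub ((c a1).mul snd)
    refine this.congr fun u v _ _ => ?_
    simp [chartA]
  · exact c 0
  · exact c 0
  · exact c a2

lemma MatL_chartB (b0 b1 b2 h l : ℂ) : MatL fun u v => chartB b0 b1 b2 h l u v := by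
  intro i j
  have c := IsLaurent.const
  have fst := IsLaurent.fst
  have snd := IsLaurent.snd
  have ifst := IsLaurent.inv_fst
  have isnd := IsLaurent.inv_snd
  fin_cases i <;> fin_cases j
  · exact c b0
  · exact c 0
  · exact c 0
  · have := ((c (b0 / h)).mul snd).sub (c b1)
    refine this.congr fun u v _ _ => ?_
    simp [chartB]
    ring
  · exact c b1
  · exact c 0
  · have := ((((c (b2 / l)).mul ifst).add (c (b0 / h)))).sub
      ((((c b1).mul ((c 1).add fst)).mul ifst).mul isnd)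
    refine this.congr fun u v _ _ => ?_
    simp [chartB]
    ring
  · have := (((((c b1).mul ((c 1).add fst)).mul ifst).mul isnd)).sub
      ((((c 1).add ((c l).mul fst)).mul ((c (b2 / l)).mul ifst)))
    refine this.congr fun u v _ _ => ?_
    simp [chartB]
    ring
  · exact c b2

namespace CP

variable (c : CP)

lemma MatL_mA : MatL c.mA := MatL_chartA _ _ _ _ _
lemma MatL_mB : MatL c.mB := MatL_chartB _ _ _ _ _

lemma L_g01 : IsLaurent c.g01 :=
  ((c.MatL_mA 0 1).mul (IsLaurent.const (c.a1 - c.a0)⁻¹)).congr fun u v _ _ => by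
    simp [g01, div_eq_mul_inv]

lemma L_g12 : IsLaurent c.g12 :=
  ((c.MatL_mA 1 2).mul (IsLaurent.const (c.a2 - c.a1)⁻¹)).congr fun u v _ _ => by
    simp [g12, div_eq_mul_inv]

lemma L_g02 : IsLaurent c.g02 :=
  ((((c.MatL_mA 0 1).mul c.L_g12).add (c.MatL_mA 0 2)).mul
    (IsLaurent.const (c.a2 - c.a0)⁻¹)).congr fun u v _ _ => by
    simp [g02, div_eq_mul_inv]

lemma MatL_mGi : MatL c.mGi :=
  MatL.upG c.L_g01.neg ((c.L_g01.mul c.L_g12).sub c.L_g02) c.L_g12.neg

lemma MatL_mG : MatL c.mG := MatL.upG c.L_g01 c.L_g02 c.L_g12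

lemma MatL_Bt : MatL fun u v => ((c.Bt u v : SL3) : Mat3) := by
  have := (c.MatL_mGi.mul c.MatL_mB).mul c.MatL_mG
  intro i j
  refine (this i j).congr fun u v _ _ => ?_
  show (c.mGi u v * c.mB u v * c.mG u v) i j = ((c.Bt u v : SL3) : Mat3) i j
  rw [coe_Bt]

lemma L_qc : IsLaurent fun u v => qc ((c.Bt u v : SL3) : Mat3) :=
  ((c.MatL_Bt 0 1).mul (c.MatL_Bt 1 2)).mul (c.MatL_Bt 2 0)

lemma L_f (f : MvPolynomial Var ℂ) :
    IsLaurent fun u v => MvPolynomial.aeval (point (c.A u v) (c.B u v)) f := by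
  refine IsLaurent.aeval (fun s u v => point (c.A u v) (c.B u v) s) (fun s => ?_) f
  rcases s with p | p
  · exact c.MatL_mA p.1 p.2
  · exact c.MatL_mB p.1 p.2

/-- The independence of the coordinates along the chart. -/
lemma indep (P : ℂ[X][Y])
    (hP : ∀ u v : ℂ, u ≠ 0 → v ≠ 0 → P.evalEval (c.D.xCoord ((c.Bt u v : SL3) : Mat3))
      (c.D.yCoord ((c.Bt u v : SL3) : Mat3)) = 0) : P = 0 := by
  apply chart_indep c.ha c.hb c.hh c.hl P
  intro u v hu hv
  have := hP u v hu hv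
  rwa [xCoord_Bt, yCoord_Bt] at this

/-- The function `q` does not vanish identically on the chart. -/
lemma exists_qc_ne_zero : ¬ ∀ u v : ℂ, u ≠ 0 → v ≠ 0 → qc ((c.Bt u v : SL3) : Mat3) = 0 := by
  intro h0
  have hF : c.D.Fpoly = 0 := by
    apply c.indep
    intro u v hu hv
    rw [SurfaceData.F_eval (c.inW_Bt u v hu hv) c.h01 c.h02 c.h12, h0 u v hu hv, zero_mul]
  exact SurfaceData.Fpoly_ne_zero c.D c.h01 c.h02 c.h12 hF

/-- The heart of the density argument. -/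
theorem core (f : MvPolynomial Var ℂ) (hf : IsConjInvariant f) (S T : Set ℂ)
    (hS : S.Infinite) (hT : T.Infinite) (hS0 : ∀ u ∈ S, u ≠ 0) (hT0 : ∀ v ∈ T, v ≠ 0)
    (hgrid : ∀ u ∈ S, ∀ v ∈ T, MvPolynomial.aeval (point (c.A u v) (c.B u v)) f = 0 ∨
      qc ((c.Bt u v : SL3) : Mat3) = 0) :
    ∀ B : SL3, c.D.InW (B : Mat3) →
      MvPolynomial.aeval (point (DD c.a0 c.a1 c.a2 c.ha) B) f = 0 := by
  obtain ⟨α, β, hform⟩ := exists_form (D := c.D) c.ha c.h01 c.h02 c.h12 f hf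
  have hφ : ∀ u v : ℂ, u ≠ 0 → v ≠ 0 → MvPolynomial.aeval (point (c.A u v) (c.B u v)) f = 0 := by
    rcases IsLaurent.eq_zero_or_of_mul (c.L_f f) c.L_qc S T hS hT hS0 hT0 hgrid with h | h
    · exact h
    · exact absurd h c.exists_qc_ne_zero
  have hvan : ∀ u v : ℂ, u ≠ 0 → v ≠ 0 →
      α.evalEval (c.D.xCoord ((c.Bt u v : SL3) : Mat3)) (c.D.yCoord ((c.Bt u v : SL3) : Mat3)) +
      β.evalEval (c.D.xCoord ((c.Bt u v : SL3) : Mat3)) (c.D.yCoord ((c.Bt u v : SL3) : Mat3)) *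
        qc ((c.Bt u v : SL3) : Mat3) = 0 := by
    intro u v hu hv
    rw [← hform _ (c.inW_Bt u v hu hv), ← hφ u v hu hv, ← hf (c.A u v) (c.B u v) (c.G u v), conj_A]
    rfl
  obtain ⟨hα, hβ⟩ := double_cover_vanish c.D.Epoly c.D.Fpoly
    (SurfaceData.odd_disc c.D c.h01 c.h02 c.h12)
    (fun u v => c.D.xCoord ((c.Bt u v : SL3) : Mat3))
    (fun u v => c.D.yCoord ((c.Bt u v : SL3) : Mat3))
    (fun u v => qc ((c.Bt u v : SL3) : Mat3))
    c.indep
    (fun u v hu hv => SurfaceData.rel_eval (c.inW_Bt u v hu hv) c.h01 c.h02 c.h12)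
    α β hvan
  intro B hB
  refine (hform B hB).trans ?_
  rw [hα, hβ]
  simp

end CP

end Vale.Agent.Lib.P002
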