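import Mathlib
import Vale.Agent.Lib.P002.Assembly

set_option linter.unusedSectionVars false
set_option linter.unusedVariables false
set_option linter.unusedSimpArgs false
set_option linter.unnecessarySeqFocus false

namespace Vale.Agent.Lib.P002

/-! ### Irreducibility -/

lemma act_mul (M N : SL3) (x : Fin 3 → ℂ) :
    ((M * N : SL3) : Mat3).mulVec x = (M : Mat3).mulVec ((N : Mat3).mulVec x) := by
  rw [Matrix.SpecialLinearGroup.coe_mul, Matrix.mulVec_mulVec]

lemma act_inv_self (M : SL3) (x : Fin 3 → ℂ) :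
    ((M⁻¹ : SL3) : Mat3).mulVec ((M : Mat3).mulVec x) = x := by
  rw [← act_mul]
  simp

lemma act_self_inv (M : SL3) (x : Fin 3 → ℂ) :
    (M : Mat3).mulVec (((M⁻¹ : SL3) : Mat3).mulVec x) = x := by
  rw [← act_mul]
  simp

/-- The standard basis vector. -/
def ee (i : Fin 3) : Fin 3 → ℂ := Pi.single i 1

lemma DD_mulVec (a0 a1 a2 : ℂ) (ha : a0 * a1 * a2 = 1) (w : Fin 3 → ℂ) (i : Fin 3) :
    ((DD a0 a1 a2 ha : SL3) : Mat3).mulVec w i = ![a0, a1, a2] i * w i := by
  rw [coe_DD, Matrix.mulVec_diagonal]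

/-- From a vector in a diagonal-invariant subspace extract a basis vector. -/
lemma ee_mem_of_coord {a : Fin 3 → ℂ} {W : Submodule ℂ (Fin 3 → ℂ)}
    (hD : ∀ x ∈ W, (fun i => a i * x i) ∈ W) {i j k : Fin 3}
    (hij : a i ≠ a j) (hik : a i ≠ a k) (hall : ∀ l : Fin 3, l = i ∨ l = j ∨ l = k)
    {w : Fin 3 → ℂ} (hw : w ∈ W) (hwi : w i ≠ 0) (hne : i ≠ j ∧ i ≠ k) : ee i ∈ W := by
  have h1 := hD w hw
  have h2 := hD _ h1
  have h3 : ((a i - a j)⁻¹ * (a i - a k)⁻¹ * (w i)⁻¹) •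
      ((fun l => a l * (a l * w l)) - (a j + a k) • (fun l => a l * w l) + (a j * a k) • w) ∈ W := by
    refine W.smul_mem _ (W.add_mem (W.sub_mem h2 (W.smul_mem _ h1)) (W.smul_mem _ hw))
  convert h3 using 1
  ext l
  have h4 : a i - a j ≠ 0 := sub_ne_zero.mpr hij
  have h5 : a i - a k ≠ 0 := sub_ne_zero.mpr hik
  simp only [Pi.smul_apply, Pi.add_apply, Pi.sub_apply, smul_eq_mul]
  rcases hall l with rfl | rfl | rfl
  · simp only [ee, Pi.single_eq_same]
    field_simp
    ring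
  · have : (ee i) l = 0 := by simp [ee, Ne.symm hne.1]
    rw [this]
    ring
  · have : (ee i) l = 0 := by simp [ee, Ne.symm hne.2]
    rw [this]
    ring

/-- If the three-cycle of `B` is nonzero then `(diag(a), B)` has no invariant subspace. -/
lemma irreducible_of_qc {a0 a1 a2 : ℂ} (ha : a0 * a1 * a2 = 1) (h01 : a0 ≠ a1) (h02 : a0 ≠ a2)
    (h12 : a1 ≠ a2) (B : SL3) (hq : qc (B : Mat3) ≠ 0) (W : Submodule ℂ (Fin 3 → ℂ))
    (hD : IsInvariantSubspace (DD a0 a1 a2 ha) W) (hB : IsInvariantSubspace B W) :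
    W = ⊥ ∨ W = ⊤ := by
  by_cases hbot : W = ⊥
  · exact Or.inl hbot
  right
  have h01' : B.1 0 1 ≠ 0 := by
    intro h; apply hq; show _ * _ * _ = _; rw [show (B : Mat3) 0 1 = 0 from h]; ring
  have h12' : B.1 1 2 ≠ 0 := by
    intro h; apply hq; show _ * _ * _ = _; rw [show (B : Mat3) 1 2 = 0 from h]; ring
  have h20' : B.1 2 0 ≠ 0 := by
    intro h; apply hq; show _ * _ * _ = _; rw [show (B : Mat3) 2 0 = 0 from h]; ring
  let a : Fin 3 → ℂ := ![a0, a1, a2]
  have hD' : ∀ x ∈ W, (fun i => a i * x i) ∈ W := by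
    intro x hx
    have := hD x hx
    convert this using 1
    ext i
    rw [DD_mulVec]
  have hall0 : ∀ l : Fin 3, l = 0 ∨ l = 1 ∨ l = 2 := by decide
  have hall1 : ∀ l : Fin 3, l = 1 ∨ l = 0 ∨ l = 2 := by decide
  have hall2 : ∀ l : Fin 3, l = 2 ∨ l = 0 ∨ l = 1 := by decide
  have e0 : ∀ w ∈ W, w 0 ≠ 0 → ee 0 ∈ W := fun w hw hwi =>
    ee_mem_of_coord (i := 0) (j := 1) (k := 2) hD' (show a 0 ≠ a 1 from h01) (show a 0 ≠ a 2 from h02)
      hall0 hw hwi (by decide)
  have e1 : ∀ w ∈ W, w 1 ≠ 0 → ee 1 ∈ W := fun w hw hwi =>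
    ee_mem_of_coord (i := 1) (j := 0) (k := 2) hD' (show a 1 ≠ a 0 from h01.symm)
      (show a 1 ≠ a 2 from h12) hall1 hw hwi (by decide)
  have e2 : ∀ w ∈ W, w 2 ≠ 0 → ee 2 ∈ W := fun w hw hwi =>
    ee_mem_of_coord (i := 2) (j := 0) (k := 1) hD' (show a 2 ≠ a 0 from h02.symm)
      (show a 2 ≠ a 1 from h12.symm) hall2 hw hwi (by decide)
  have col : ∀ j, ee j ∈ W → ∀ i, ∃ w ∈ W, w i = B.1 i j := by
    intro j hj i
    refine ⟨_, hB _ hj, ?_⟩
    simp [ee, Matrix.mulVec, dotProduct, Pi.single_apply, Fin.sum_univ_three]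
  have c01 : ee 0 ∈ W → ee 2 ∈ W := fun h => by
    obtain ⟨w, hw, hwv⟩ := col 0 h 2
    exact e2 w hw (by rw [hwv]; exact h20')
  have c20 : ee 2 ∈ W → ee 1 ∈ W := fun h => by
    obtain ⟨w, hw, hwv⟩ := col 2 h 1
    exact e1 w hw (by rw [hwv]; exact h12')
  have c12 : ee 1 ∈ W → ee 0 ∈ W := fun h => by
    obtain ⟨w, hw, hwv⟩ := col 1 h 0
    exact e0 w hw (by rw [hwv]; exact h01')
  obtain ⟨w, hw, hw0⟩ := (Submodule.ne_bot_iff W).mp hbot
  have hsome : ee 0 ∈ W := by
    have : ∃ i, w i ≠ 0 := by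
      by_contra hcon
      push Not at hcon
      exact hw0 (funext hcon)
    obtain ⟨i, hi⟩ := this
    fin_cases i
    · exact e0 w hw hi
    · exact c12 (e1 w hw hi)
    · exact c12 (c20 (e2 w hw hi))
  have hall : ee 0 ∈ W ∧ ee 1 ∈ W ∧ ee 2 ∈ W := ⟨hsome, c20 (c01 hsome), c01 hsome⟩
  rw [Submodule.eq_top_iff']
  intro x
  have : x = x 0 • ee 0 + x 1 • ee 1 + x 2 • ee 2 := by
    ext i
    fin_cases i <;> simp [ee]
  rw [this]
  exact W.add_mem (W.add_mem (W.smul_mem _ hall.1) (W.smul_mem _ hall.2.1)) (W.smul_mem _ hall.2.2)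

/-- A pair conjugate to an irreducible pair in the slice is semisimple. -/
lemma semisimple_of_qc {a0 a1 a2 : ℂ} {ha : a0 * a1 * a2 = 1} (h01 : a0 ≠ a1) (h02 : a0 ≠ a2)
    (h12 : a1 ≠ a2) {G A B : SL3} (hG : G * A * G⁻¹ = DD a0 a1 a2 ha)
    (hq : qc ((G * B * G⁻¹ : SL3) : Mat3) ≠ 0) : IsSemisimplePair A B := by
  intro W hA hB
  let W' : Submodule ℂ (Fin 3 → ℂ) := W.comap (Matrix.mulVecLin ((G⁻¹ : SL3) : Mat3))
  have memW' : ∀ x, x ∈ W' ↔ ((G⁻¹ : SL3) : Mat3).mulVec x ∈ W := fun x => Iff.rfl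
  have hD' : IsInvariantSubspace (DD a0 a1 a2 ha) W' := by
    intro x hx
    rw [memW'] at hx ⊢
    rw [← hG, ← act_mul]
    have e : G⁻¹ * (G * A * G⁻¹) = A * G⁻¹ := by group
    rw [e, act_mul]
    exact hA _ hx
  have hB' : IsInvariantSubspace (G * B * G⁻¹) W' := by
    intro x hx
    rw [memW'] at hx ⊢
    rw [← act_mul]
    have e : G⁻¹ * (G * B * G⁻¹) = B * G⁻¹ := by group
    rw [e, act_mul]
    exact hB _ hx
  rcases irreducible_of_qc ha h01 h02 h12 _ hq W' hD' hB' with h | h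
  · have hW : W = ⊥ := by
      rw [Submodule.eq_bot_iff]
      intro w hw
      have : (G : Mat3).mulVec w ∈ W' := by
        rw [memW', act_inv_self]
        exact hw
      rw [h, Submodule.mem_bot] at this
      have h2 := act_inv_self G w
      rw [this] at h2
      simpa using h2.symm
    subst hW
    exact ⟨⊤, isCompl_bot_top, fun _ _ => Submodule.mem_top, fun _ _ => Submodule.mem_top⟩
  · have hW : W = ⊤ := by
      rw [Submodule.eq_top_iff']
      intro w
      have : (G : Mat3).mulVec w ∈ W' := by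
        rw [h]; exact Submodule.mem_top
      rw [memW', act_inv_self] at this
      exact this
    subst hW
    refine ⟨⊥, isCompl_top_bot, ?_, ?_⟩
    · intro x hx
      rw [Submodule.mem_bot] at hx
      simp [hx]
    · intro x hx
      rw [Submodule.mem_bot] at hx
      simp [hx]

/-! ### Conjugacy classes -/

lemma InDiagClass.trace {d : Fin 3 → ℂ} {M : SL3} (h : InDiagClass d M) :
    (M : Mat3).trace = d 0 + d 1 + d 2 := by
  obtain ⟨g, hg⟩ := h
  rw [hg, Matrix.trace_mul_comm, ← Matrix.mul_assoc]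
  have : ((g⁻¹ : SL3) : Mat3) * (g : Mat3) = 1 := by
    rw [← Matrix.SpecialLinearGroup.coe_mul]; simp
  rw [this, Matrix.one_mul, Matrix.trace_fin_three]
  simp

lemma InDiagClass.trace_inv {d : Fin 3 → ℂ} {M : SL3} (h : InDiagClass d M)
    (hd : d 0 * d 1 * d 2 = 1) :
    ((M⁻¹ : SL3) : Mat3).trace = d 1 * d 2 + d 0 * d 2 + d 0 * d 1 := by
  obtain ⟨g, hg⟩ := h
  have hM : M = g * DD (d 0) (d 1) (d 2) hd * g⁻¹ := by
    apply Matrix.SpecialLinearGroup.ext
    intro i j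
    have hd' : ![d 0, d 1, d 2] = d := by
      ext i
      fin_cases i <;> rfl
    rw [hg, Matrix.SpecialLinearGroup.coe_mul, Matrix.SpecialLinearGroup.coe_mul, coe_DD, hd']
  have hinv : M⁻¹ = g * DD (d 1 * d 2) (d 0 * d 2) (d 0 * d 1) (prod_aux hd) * g⁻¹ := by
    rw [← DD_inv (d 0) (d 1) (d 2) hd (prod_aux hd), hM]
    group
  rw [hinv, trace_conj, coe_DD, Matrix.trace_fin_three]
  simp

/-- A matrix in `SL3` with prescribed distinct eigenvalues (via its trace and the trace of its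
adjugate) is conjugate to the diagonal matrix. -/
theorem inDiagClass_of_traces (d : Fin 3 → ℂ) (hd : d 0 * d 1 * d 2 = 1) (h01 : d 0 ≠ d 1)
    (h02 : d 0 ≠ d 2) (h12 : d 1 ≠ d 2) (M : SL3)
    (h1 : (M : Mat3).trace = d 0 + d 1 + d 2)
    (h2 : (Matrix.adjugate (M : Mat3)).trace = d 1 * d 2 + d 0 * d 2 + d 0 * d 1) :
    InDiagClass d M := by
  have hdet : (M : Mat3).det = 1 := M.2
  -- eigenvectors
  have hroot : ∀ i, ∃ v : Fin 3 → ℂ, v ≠ 0 ∧ (M : Mat3).mulVec v = d i • v := by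
    intro i
    have hdet0 : (Matrix.diagonal (fun _ => d i) - (M : Mat3)).det = 0 := by
      have hdi : (d i - d 0) * (d i - d 1) * (d i - d 2) = 0 := by
        fin_cases i <;> simp
      rw [Matrix.trace_fin_three] at h1
      rw [Matrix.trace_fin_three, Matrix.adjugate_fin_three] at h2
      simp at h2
      rw [Matrix.det_fin_three] at hdet ⊢
      simp [Matrix.diagonal, Matrix.sub_apply]
      linear_combination hdi - (d i) ^ 2 * h1 + (d i) * h2 - hdet + hd
    obtain ⟨v, hv, hv0⟩ := Matrix.exists_mulVec_eq_zero_iff.mpr hdet0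
    refine ⟨v, hv, ?_⟩
    rw [Matrix.sub_mulVec, sub_eq_zero] at hv0
    rw [← hv0]
    ext j
    rw [Matrix.mulVec_diagonal]
    simp
  choose v hv0 hv using hroot
  let P : Mat3 := Matrix.of fun i j => v j i
  have hP : (M : Mat3) * P = P * Matrix.diagonal d := by
    ext i j
    have := congrFun (hv j) i
    simp only [Matrix.mulVec, dotProduct, Pi.smul_apply, smul_eq_mul] at this
    rw [Matrix.mul_diagonal, Matrix.mul_apply]
    simp only [P, Matrix.of_apply]
    rw [this]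
    ring
  have hPdet : P.det ≠ 0 := by
    intro h0
    obtain ⟨w, hw, hw0⟩ := Matrix.exists_mulVec_eq_zero_iff.mpr h0
    -- sum of eigenvectors vanishes
    have hS : ∀ i, w 0 * v 0 i + w 1 * v 1 i + w 2 * v 2 i = 0 := by
      intro i
      have := congrFun hw0 i
      simp only [Matrix.mulVec, dotProduct, P, Matrix.of_apply, Fin.sum_univ_three,
        Pi.zero_apply] at this
      linear_combination this
    let S : Fin 3 → ℂ := fun i => w 0 * v 0 i + w 1 * v 1 i + w 2 * v 2 i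
    have hS0 : S = 0 := funext hS
    have hM1 : ∀ j, (M : Mat3).mulVec (v j) = d j • v j := hv
    have hS1 : ∀ i, w 0 * d 0 * v 0 i + w 1 * d 1 * v 1 i + w 2 * d 2 * v 2 i = 0 := by
      intro i
      have h0 : (M : Mat3).mulVec S = 0 := by rw [hS0]; simp
      have h3 : S = w 0 • v 0 + w 1 • v 1 + w 2 • v 2 := by
        ext k; simp [S]
      rw [h3, Matrix.mulVec_add, Matrix.mulVec_add, Matrix.mulVec_smul, Matrix.mulVec_smul,
        Matrix.mulVec_smul, hM1, hM1, hM1] at h0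
      have := congrFun h0 i
      simp at this
      linear_combination this
    have hS2 : ∀ i, w 0 * d 0 * d 0 * v 0 i + w 1 * d 1 * d 1 * v 1 i + w 2 * d 2 * d 2 * v 2 i = 0 := by
      intro i
      let S' : Fin 3 → ℂ := fun i => w 0 * d 0 * v 0 i + w 1 * d 1 * v 1 i + w 2 * d 2 * v 2 i
      have hS'0 : S' = 0 := funext hS1
      have h0 : (M : Mat3).mulVec S' = 0 := by rw [hS'0]; simp
      have h3 : S' = (w 0 * d 0) • v 0 + (w 1 * d 1) • v 1 + (w 2 * d 2) • v 2 := by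
        ext k; simp [S']
      rw [h3, Matrix.mulVec_add, Matrix.mulVec_add, Matrix.mulVec_smul, Matrix.mulVec_smul,
        Matrix.mulVec_smul, hM1, hM1, hM1] at h0
      have := congrFun h0 i
      simp at this
      linear_combination this
    have hw0' : w 0 = 0 := by
      by_contra hne
      apply hv0 0
      ext i
      have : w 0 * ((d 0 - d 1) * (d 0 - d 2)) * v 0 i = 0 := by
        linear_combination hS2 i - (d 1 + d 2) * hS1 i + d 1 * d 2 * hS i
      have h4 : w 0 * ((d 0 - d 1) * (d 0 - d 2)) ≠ 0 :=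
        mul_ne_zero hne (mul_ne_zero (sub_ne_zero.mpr h01) (sub_ne_zero.mpr h02))
      simpa [h4] using this
    have hw1' : w 1 = 0 := by
      by_contra hne
      apply hv0 1
      ext i
      have : w 1 * ((d 1 - d 0) * (d 1 - d 2)) * v 1 i = 0 := by
        linear_combination hS2 i - (d 0 + d 2) * hS1 i + d 0 * d 2 * hS i
      have h4 : w 1 * ((d 1 - d 0) * (d 1 - d 2)) ≠ 0 :=
        mul_ne_zero hne (mul_ne_zero (sub_ne_zero.mpr h01.symm) (sub_ne_zero.mpr h12))
      simpa [h4] using this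
    have hw2' : w 2 = 0 := by
      by_contra hne
      apply hv0 2
      ext i
      have : w 2 * ((d 2 - d 0) * (d 2 - d 1)) * v 2 i = 0 := by
        linear_combination hS2 i - (d 0 + d 1) * hS1 i + d 0 * d 1 * hS i
      have h4 : w 2 * ((d 2 - d 0) * (d 2 - d 1)) ≠ 0 :=
        mul_ne_zero hne (mul_ne_zero (sub_ne_zero.mpr h02.symm) (sub_ne_zero.mpr h12.symm))
      simpa [h4] using this
    apply hw
    ext i
    fin_cases i
    · exact hw0'
    · exact hw1'
    · exact hw2'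
  -- rescale to determinant one
  let κ : Fin 3 → ℂ := ![(P.det)⁻¹, 1, 1]
  let Q : Mat3 := P * Matrix.diagonal κ
  have hQdet : Q.det = 1 := by
    simp only [Q, Matrix.det_mul, Matrix.det_diagonal, Fin.prod_univ_three, κ]
    simp [hPdet]
  let g : SL3 := ⟨Q, hQdet⟩
  refine ⟨g, ?_⟩
  have hQ : (M : Mat3) * Q = Q * Matrix.diagonal d := by
    simp only [Q]
    rw [← Matrix.mul_assoc, hP, Matrix.mul_assoc, Matrix.mul_assoc, Matrix.diagonal_mul_diagonal,
      Matrix.diagonal_mul_diagonal]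
    congr 2
    ext i
    ring
  have h3 : (g : Mat3) * ((g⁻¹ : SL3) : Mat3) = 1 := by
    rw [← Matrix.SpecialLinearGroup.coe_mul]; simp
  calc (M : Mat3) = (M : Mat3) * ((g : Mat3) * ((g⁻¹ : SL3) : Mat3)) := by rw [h3, Matrix.mul_one]
    _ = ((M : Mat3) * Q) * ((g⁻¹ : SL3) : Mat3) := by rw [← Matrix.mul_assoc]
    _ = (g : Mat3) * Matrix.diagonal d * ((g⁻¹ : SL3) : Mat3) := by rw [hQ]

end Vale.Agent.Lib.P002
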