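import Mathlib
import Vale.Agent.Lib.P002.Classes

set_option linter.unusedSectionVars false
set_option linter.unusedVariables false
set_option linter.unusedSimpArgs false
set_option linter.unnecessarySeqFocus false

namespace Vale.Agent.Lib.P002

open Polynomial
open scoped Polynomial.Bivariate

/-- The ring of integers of `L`, as a subring of `ℂ`. -/
def intRing (L : IntermediateField ℚ ℂ) : Subring ℂ where
  carrier := {z | z ∈ L ∧ IsIntegral ℤ z}
  mul_mem' := fun ha hb => ⟨L.mul_mem ha.1 hb.1, ha.2.mul hb.2⟩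
  one_mem' := ⟨L.one_mem, isIntegral_one⟩
  add_mem' := fun ha hb => ⟨L.add_mem ha.1 hb.1, ha.2.add hb.2⟩
  zero_mem' := ⟨L.zero_mem, isIntegral_zero⟩
  neg_mem' := fun ha => ⟨L.neg_mem ha.1, ha.2.neg⟩

lemma aeval_mem_intRing (L : IntermediateField ℚ ℂ) (f : MvPolynomial Var ℤ) (x : Var → ℂ)
    (hx : ∀ s, x s ∈ intRing L) : MvPolynomial.aeval x f ∈ intRing L := by
  induction f using MvPolynomial.induction_on with
  | C n =>
    simp only [MvPolynomial.aeval_C]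
    have : (algebraMap ℤ ℂ) n = ((n : ℤ) : ℂ) := rfl
    rw [this]
    exact intCast_mem _ n
  | add p q hp hq =>
    rw [map_add]
    exact (intRing L).add_mem hp hq
  | mul_X p s hp =>
    rw [map_mul, MvPolynomial.aeval_X]
    exact (intRing L).mul_mem hp (hx s)

/-- A pair with entries in the ring of integers is an integral point. -/
lemma isIntegralPoint_of_mem (L : IntermediateField ℚ ℂ) (A B : SL3)
    (hA : ∀ i j, (A : Mat3) i j ∈ intRing L) (hB : ∀ i j, (B : Mat3) i j ∈ intRing L) :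
    IsIntegralPoint L (A, B) := by
  intro f _
  have := aeval_mem_intRing L f (point A B) (by
    rintro (p | p)
    · exact hA p.1 p.2
    · exact hB p.1 p.2)
  exact this

namespace CP

variable (c : CP)

/-- Integrality of the chart. -/
lemma mem_chart (L : IntermediateField ℚ ℂ) {u v : ℂ}
    (ha0 : c.a0 ∈ intRing L) (ha1 : c.a1 ∈ intRing L) (ha2 : c.a2 ∈ intRing L)
    (hb0 : c.b0 ∈ intRing L) (hb1 : c.b1 ∈ intRing L) (hb2 : c.b2 ∈ intRing L)
    (hh : c.h ∈ intRing L) (hh' : c.h⁻¹ ∈ intRing L)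
    (hl : c.l ∈ intRing L) (hl' : c.l⁻¹ ∈ intRing L)
    (hu : u ∈ intRing L) (hu' : u⁻¹ ∈ intRing L)
    (hv : v ∈ intRing L) (hv' : v⁻¹ ∈ intRing L) :
    (∀ i j, ((c.A u v : SL3) : Mat3) i j ∈ intRing L) ∧
      (∀ i j, ((c.B u v : SL3) : Mat3) i j ∈ intRing L) := by
  set S := intRing L
  have h1 : (1 : ℂ) ∈ S := S.one_mem
  have h0 : (0 : ℂ) ∈ S := S.zero_mem
  constructor
  · intro i j
    show chartA c.a0 c.a1 c.a2 c.h c.l u v i j ∈ S
    fin_cases i <;> fin_cases j <;> simp [chartA, div_eq_mul_inv]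
    · exact ha0
    · exact S.sub_mem (S.mul_mem (S.add_mem h1 (S.mul_mem hl hu)) ha1)
        (S.mul_mem (S.mul_mem (S.mul_mem ha0 hh) (S.add_mem h1 hu)) hv')
    · exact S.sub_mem (S.add_mem (S.mul_mem (S.mul_mem ha0 hh) hu) ha2)
        (S.mul_mem (S.mul_mem (S.add_mem h1 (S.mul_mem hl hu)) ha1) hv)
    · exact ha1
    · exact S.sub_mem ha2 (S.mul_mem ha1 hv)
    · exact ha2
  · intro i j
    show chartB c.b0 c.b1 c.b2 c.h c.l u v i j ∈ S
    fin_cases i <;> fin_cases j <;> simp [chartB, div_eq_mul_inv]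
    · exact hb0
    · exact S.sub_mem (S.mul_mem (S.mul_mem hb0 hv) hh') hb1
    · exact hb1
    · exact S.sub_mem (S.add_mem (S.mul_mem hb2 (S.mul_mem hu' hl')) (S.mul_mem hb0 hh'))
        (S.mul_mem (S.mul_mem (S.add_mem h1 hu) hb1) (S.mul_mem hv' hu'))
    · exact S.sub_mem (S.mul_mem (S.mul_mem (S.add_mem h1 hu) hb1) (S.mul_mem hv' hu'))
        (S.mul_mem (S.mul_mem (S.add_mem h1 (S.mul_mem hl hu)) hb2) (S.mul_mem hu' hl'))
    · exact hb2

lemma trace_adj_A (u v : ℂ) :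
    (Matrix.adjugate ((c.A u v : SL3) : Mat3)).trace =
      c.a1 * c.a2 + c.a0 * c.a2 + c.a0 * c.a1 := trace_adj_chartA

lemma trace_adj_B (u v : ℂ) :
    (Matrix.adjugate ((c.B u v : SL3) : Mat3)).trace =
      c.b1 * c.b2 + c.b0 * c.b2 + c.b0 * c.b1 := trace_adj_chartB

lemma L_x : IsLaurent fun u v => c.D.xCoord ((c.Bt u v : SL3) : Mat3) := by
  have m := c.MatL_Bt
  have c0 : IsLaurent fun u v => cof0 ((c.Bt u v : SL3) : Mat3) :=
    ((m 1 1).mul (m 2 2)).sub ((m 1 2).mul (m 2 1))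
  have c1 : IsLaurent fun u v => cof1 ((c.Bt u v : SL3) : Mat3) :=
    ((m 0 0).mul (m 2 2)).sub ((m 0 2).mul (m 2 0))
  have c2 : IsLaurent fun u v => cof2 ((c.Bt u v : SL3) : Mat3) :=
    ((m 0 0).mul (m 1 1)).sub ((m 0 1).mul (m 1 0))
  exact (((IsLaurent.const c.D.a0).mul c0).add ((IsLaurent.const c.D.a1).mul c1)).add
    ((IsLaurent.const c.D.a2).mul c2)

lemma L_y : IsLaurent fun u v => c.D.yCoord ((c.Bt u v : SL3) : Mat3) := by
  have m := c.MatL_Bt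
  exact (((IsLaurent.const (c.D.a1 * c.D.a2)).mul (m 0 0)).add
    ((IsLaurent.const (c.D.a0 * c.D.a2)).mul (m 1 1))).add
    ((IsLaurent.const (c.D.a0 * c.D.a1)).mul (m 2 2))

end CP

/-- The data attached to three triples of eigenvalues. -/
noncomputable def mkCP (a b c : Fin 3 → ℂ) (ha1 : a 0 * a 1 * a 2 = 1) (hb1 : b 0 * b 1 * b 2 = 1)
    (hc1 : c 0 * c 1 * c 2 = 1) (h01 : a 0 ≠ a 1) (h02 : a 0 ≠ a 2) (h12 : a 1 ≠ a 2) : CP where
  a0 := a 0
  a1 := a 1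
  a2 := a 2
  b0 := b 0
  b1 := b 1
  b2 := b 2
  h := a 2 * b 0 * c 0
  l := (a 1 * b 1 * c 1)⁻¹
  ha := ha1
  hb := hb1
  hh := by
    have h1 : a 2 ≠ 0 := by intro h; rw [h] at ha1; simp at ha1
    have h2 : b 0 ≠ 0 := by intro h; rw [h] at hb1; simp at hb1
    have h3 : c 0 ≠ 0 := by intro h; rw [h] at hc1; simp at hc1
    exact mul_ne_zero (mul_ne_zero h1 h2) h3
  hl := by
    have h1 : a 1 ≠ 0 := by intro h; rw [h] at ha1; simp at ha1
    have h2 : b 1 ≠ 0 := by intro h; rw [h] at hb1; simp at hb1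
    have h3 : c 1 ≠ 0 := by intro h; rw [h] at hc1; simp at hc1
    exact inv_ne_zero (mul_ne_zero (mul_ne_zero h1 h2) h3)
  h01 := h01
  h02 := h02
  h12 := h12

section final

variable {a b c : Fin 3 → ℂ} (ha1 : a 0 * a 1 * a 2 = 1) (hb1 : b 0 * b 1 * b 2 = 1)
    (hc1 : c 0 * c 1 * c 2 = 1) (h01 : a 0 ≠ a 1) (h02 : a 0 ≠ a 2) (h12 : a 1 ≠ a 2)

include ha1 hb1 hc1 h01 h02 h12

lemma mkCP_τe : (mkCP a b c ha1 hb1 hc1 h01 h02 h12).D.τe =
    c 1 * c 2 + c 0 * c 2 + c 0 * c 1 := by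
  have h1 : a 1 ≠ 0 := by intro h; rw [h] at ha1; simp at ha1
  have h2 : a 2 ≠ 0 := by intro h; rw [h] at ha1; simp at ha1
  have h3 : b 0 ≠ 0 := by intro h; rw [h] at hb1; simp at hb1
  have h4 : b 1 ≠ 0 := by intro h; rw [h] at hb1; simp at hb1
  have h5 : c 0 ≠ 0 := by intro h; rw [h] at hc1; simp at hc1
  have h6 : c 1 ≠ 0 := by intro h; rw [h] at hc1; simp at hc1
  simp only [mkCP, CP.D]
  have e1 : a 2 * b 0 / (a 2 * b 0 * c 0) = c 1 * c 2 := by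
    field_simp
    linear_combination -hc1
  have e2 : a 1 * b 1 * (a 1 * b 1 * c 1)⁻¹ = c 0 * c 2 := by
    field_simp
    linear_combination -hc1
  have e3 : a 0 * b 2 * (a 2 * b 0 * c 0) / (a 1 * b 1 * c 1)⁻¹ = c 0 * c 1 := by
    field_simp
    linear_combination (b 0 * b 1 * b 2) * ha1 + hb1
  rw [e1, e2, e3]

lemma mkCP_σe : (mkCP a b c ha1 hb1 hc1 h01 h02 h12).D.σe = c 0 + c 1 + c 2 := by
  have h1 : a 1 ≠ 0 := by intro h; rw [h] at ha1; simp at ha1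
  have h2 : a 2 ≠ 0 := by intro h; rw [h] at ha1; simp at ha1
  have h3 : b 0 ≠ 0 := by intro h; rw [h] at hb1; simp at hb1
  have h4 : b 1 ≠ 0 := by intro h; rw [h] at hb1; simp at hb1
  have h5 : c 0 ≠ 0 := by intro h; rw [h] at hc1; simp at hc1
  have h6 : c 1 ≠ 0 := by intro h; rw [h] at hc1; simp at hc1
  simp only [mkCP, CP.D]
  have e1 : a 0 * a 1 * b 1 * b 2 * (a 2 * b 0 * c 0) = c 0 := by
    linear_combination (c 0 * (b 0 * b 1 * b 2)) * ha1 + c 0 * hb1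
  have e2 : a 0 * a 2 * b 0 * b 2 / (a 1 * b 1 * c 1)⁻¹ = c 1 := by
    field_simp
    linear_combination (b 0 * b 1 * b 2) * ha1 + hb1
  have e3 : a 1 * a 2 * b 0 * b 1 * (a 1 * b 1 * c 1)⁻¹ / (a 2 * b 0 * c 0) = c 2 := by
    field_simp
    linear_combination -hc1
  rw [e1, e2, e3]

/-- Chart points with nonzero `q` lie in the relative character set. -/
lemma chart_mem (hb01 : b 0 ≠ b 1) (hb02 : b 0 ≠ b 2) (hb12 : b 1 ≠ b 2)
    (hc01 : c 0 ≠ c 1) (hc02 : c 0 ≠ c 2) (hc12 : c 1 ≠ c 2) (u v : ℂ) (hu : u ≠ 0) (hv : v ≠ 0)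
    (hq : qc (((mkCP a b c ha1 hb1 hc1 h01 h02 h12).Bt u v : SL3) : Mat3) ≠ 0) :
    ((mkCP a b c ha1 hb1 hc1 h01 h02 h12).A u v, (mkCP a b c ha1 hb1 hc1 h01 h02 h12).B u v) ∈
      relativeCharacterSet a b c := by
  set C := mkCP a b c ha1 hb1 hc1 h01 h02 h12 with hC
  refine ⟨semisimple_of_qc C.h01 C.h02 C.h12 (C.conj_A u v) hq, ?_, ?_, ?_⟩
  · exact inDiagClass_of_traces a ha1 h01 h02 h12 _ trace_chartA (C.trace_adj_A u v)
  · exact inDiagClass_of_traces b hb1 hb01 hb02 hb12 _ trace_chartB (C.trace_adj_B u v)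
  · refine inDiagClass_of_traces c hc1 hc01 hc02 hc12 _ ?_ ?_
    · rw [C.trace_ABinv u v hu hv]
      exact mkCP_σe ha1 hb1 hc1 h01 h02 h12
    · rw [← Matrix.SpecialLinearGroup.coe_inv, inv_inv, C.trace_AB u v hu hv]
      exact mkCP_τe ha1 hb1 hc1 h01 h02 h12

/-- A point of the relative character set is conjugated into the slice and the surface. -/
lemma Y_slice (ρ : SL3 × SL3) (hρ : ρ ∈ relativeCharacterSet a b c) :
    ∃ G : SL3, G * ρ.1 * G⁻¹ = DD (a 0) (a 1) (a 2) ha1 ∧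
      (mkCP a b c ha1 hb1 hc1 h01 h02 h12).D.InW ((G * ρ.2 * G⁻¹ : SL3) : Mat3) := by
  obtain ⟨_, ⟨g, hg⟩, hB, hAB⟩ := hρ
  have hG : g⁻¹ * ρ.1 * g⁻¹⁻¹ = DD (a 0) (a 1) (a 2) ha1 := by
    apply Matrix.SpecialLinearGroup.ext
    intro i j
    have hd' : ![a 0, a 1, a 2] = a := by
      ext i
      fin_cases i <;> rfl
    rw [coe_DD, hd', inv_inv, Matrix.SpecialLinearGroup.coe_mul, Matrix.SpecialLinearGroup.coe_mul,
      hg]
    have h3 : (g : Mat3) * ((g⁻¹ : SL3) : Mat3) = 1 := by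
      rw [← Matrix.SpecialLinearGroup.coe_mul]; simp
    have h4 : ((g⁻¹ : SL3) : Mat3) * (g : Mat3) = 1 := by
      rw [← Matrix.SpecialLinearGroup.coe_mul]; simp
    have : ((g⁻¹ : SL3) : Mat3) * ((g : Mat3) * Matrix.diagonal a * ((g⁻¹ : SL3) : Mat3)) * (g : Mat3)
        = Matrix.diagonal a := by
      calc _ = (((g⁻¹ : SL3) : Mat3) * (g : Mat3)) * Matrix.diagonal a *
            (((g⁻¹ : SL3) : Mat3) * (g : Mat3)) := by
              simp only [Matrix.mul_assoc]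
        _ = _ := by rw [h4]; simp
    rw [this]
  refine ⟨g⁻¹, hG, ?_⟩
  have hW := inW_conj (B := ρ.2) hG
  have e1 : ((ρ.2 : SL3) : Mat3).trace = b 0 + b 1 + b 2 := hB.trace
  have e2 : (((ρ.2)⁻¹ : SL3) : Mat3).trace = b 1 * b 2 + b 0 * b 2 + b 0 * b 1 := hB.trace_inv hb1
  have e3 : (((ρ.1 * ρ.2)⁻¹ : SL3) : Mat3).trace = c 0 + c 1 + c 2 := hAB.trace
  have e4 : ((ρ.1 * ρ.2 : SL3) : Mat3).trace = c 1 * c 2 + c 0 * c 2 + c 0 * c 1 := by
    have := hAB.trace_inv hc1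
    rwa [inv_inv] at this
  rw [e1, e2, e3, e4] at hW
  have e5 := mkCP_τe ha1 hb1 hc1 h01 h02 h12
  have e6 := mkCP_σe ha1 hb1 hc1 h01 h02 h12
  convert hW using 1
  show SurfaceData.mk (a 0) (a 1) (a 2) (b 0 + b 1 + b 2) _ (b 1 * b 2 + b 0 * b 2 + b 0 * b 1) _ = _
  congr 1

end final

end Vale.Agent.Lib.P002
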