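import Mathlib
import Vale.Agent.Lib.P002.Main

set_option linter.unusedSectionVars false
set_option linter.unusedVariables false
set_option linter.unusedSimpArgs false
set_option linter.unnecessarySeqFocus false

namespace Vale.Agent.Lib.P002

open Polynomial
open scoped Polynomial.Bivariate

/-- `√2` as a complex number. -/
noncomputable def s2 : ℂ := ((Real.sqrt 2 : ℝ) : ℂ)

lemma s2_sq : s2 * s2 = 2 := by
  simp only [s2]
  rw [← Complex.ofReal_mul, Real.mul_self_sqrt (by norm_num)]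
  norm_num

lemma s2_integral : IsIntegral ℤ s2 := by
  refine ⟨X ^ 2 - C 2, ?_, ?_⟩
  · exact Polynomial.monic_X_pow_sub_C _ (by norm_num)
  · simp [Polynomial.eval₂_sub, Polynomial.eval₂_pow]
    rw [sq, s2_sq]
    simp

/-- The unit of infinite order. -/
noncomputable def eps : ℂ := 1 + s2
noncomputable def epsI : ℂ := s2 - 1

lemma eps_mul : eps * epsI = 1 := by
  simp only [eps, epsI]
  linear_combination s2_sq

lemma eps_ne : eps ≠ 0 := by
  intro h
  have := eps_mul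
  rw [h] at this
  simp at this

lemma eps_inv : eps⁻¹ = epsI := inv_eq_of_mul_eq_one_right eps_mul

lemma eps_pow_injective : Function.Injective fun n : ℕ => eps ^ n := by
  intro m n h
  simp only at h
  have h1 : eps = (((1 + Real.sqrt 2 : ℝ)) : ℂ) := by
    simp [eps, s2]
  rw [h1, ← Complex.ofReal_pow, ← Complex.ofReal_pow] at h
  have h2 := Complex.ofReal_injective h
  have h3 : (1 : ℝ) < 1 + Real.sqrt 2 := by
    have : 0 < Real.sqrt 2 := Real.sqrt_pos.mpr (by norm_num)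
    linarith
  exact pow_right_injective₀ (by linarith) h3.ne' h2

/-- The generating set of the number field. -/
def genSet (a b c : Fin 3 → ℂ) : Set ℂ :=
  Set.range a ∪ Set.range b ∪ Set.range c ∪ {s2}

/-- The number field. -/
noncomputable def theField (a b c : Fin 3 → ℂ) : IntermediateField ℚ ℂ :=
  IntermediateField.adjoin ℚ (genSet a b c)

lemma finite_genSet (a b c : Fin 3 → ℂ) : (genSet a b c).Finite :=
  ((((Set.finite_range a).union (Set.finite_range b)).union (Set.finite_range c))).union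
    (Set.finite_singleton _)

lemma finiteDimensional_theField {a b c : Fin 3 → ℂ} (hai : ∀ i, IsIntegral ℤ (a i))
    (hbi : ∀ i, IsIntegral ℤ (b i)) (hci : ∀ i, IsIntegral ℤ (c i)) :
    FiniteDimensional ℚ (theField a b c) := by
  have := (finite_genSet a b c).to_subtype
  apply IntermediateField.finiteDimensional_adjoin
  rintro x (((⟨i, rfl⟩ | ⟨i, rfl⟩) | ⟨i, rfl⟩) | hx)
  · exact (hai i).tower_top
  · exact (hbi i).tower_top
  · exact (hci i).tower_top
  · rw [Set.mem_singleton_iff.mp hx]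
    exact s2_integral.tower_top

lemma mem_field_of_gen {a b c : Fin 3 → ℂ} {x : ℂ} (hx : x ∈ genSet a b c) :
    x ∈ theField a b c := IntermediateField.subset_adjoin ℚ _ hx

section
variable {a b c : Fin 3 → ℂ} (hai : ∀ i, IsIntegral ℤ (a i))
    (hbi : ∀ i, IsIntegral ℤ (b i)) (hci : ∀ i, IsIntegral ℤ (c i))
include hai hbi hci

lemma a_mem (i : Fin 3) : a i ∈ intRing (theField a b c) :=
  ⟨mem_field_of_gen (Or.inl (Or.inl (Or.inl ⟨i, rfl⟩))), hai i⟩
lemma b_mem (i : Fin 3) : b i ∈ intRing (theField a b c) :=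
  ⟨mem_field_of_gen (Or.inl (Or.inl (Or.inr ⟨i, rfl⟩))), hbi i⟩
lemma c_mem (i : Fin 3) : c i ∈ intRing (theField a b c) :=
  ⟨mem_field_of_gen (Or.inl (Or.inr ⟨i, rfl⟩)), hci i⟩
lemma s2_mem : s2 ∈ intRing (theField a b c) :=
  ⟨mem_field_of_gen (Or.inr rfl), s2_integral⟩
lemma eps_mem : eps ∈ intRing (theField a b c) :=
  (intRing _).add_mem (intRing _).one_mem (s2_mem hai hbi hci)
lemma epsI_mem : epsI ∈ intRing (theField a b c) :=
  (intRing _).sub_mem (s2_mem hai hbi hci) (intRing _).one_mem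

end

lemma inv_mem_intRing {L : IntermediateField ℚ ℂ} {x y z : ℂ} (hxyz : x * y * z = 1)
    (hy : y ∈ intRing L) (hz : z ∈ intRing L) : x⁻¹ ∈ intRing L := by
  have : x⁻¹ = y * z := by
    apply inv_eq_of_mul_eq_one_right
    linear_combination hxyz
  rw [this]
  exact (intRing L).mul_mem hy hz

/-- The grid of powers of the fundamental unit. -/
noncomputable def Gr : Set ℂ := Set.range fun n : ℕ => eps ^ n

lemma Gr_infinite : Gr.Infinite := Set.infinite_range_of_injective eps_pow_injective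

lemma Gr_ne {u : ℂ} (hu : u ∈ Gr) : u ≠ 0 := by
  obtain ⟨n, rfl⟩ := hu
  exact pow_ne_zero _ eps_ne

section final
variable {a b c : Fin 3 → ℂ}
    (hai : ∀ i, IsIntegral ℤ (a i)) (hbi : ∀ i, IsIntegral ℤ (b i)) (hci : ∀ i, IsIntegral ℤ (c i))
    (ha1 : a 0 * a 1 * a 2 = 1) (hb1 : b 0 * b 1 * b 2 = 1) (hc1 : c 0 * c 1 * c 2 = 1)
    (h01 : a 0 ≠ a 1) (h02 : a 0 ≠ a 2) (h12 : a 1 ≠ a 2)
include hai hbi hci ha1 hb1 hc1

lemma Gr_mem {u : ℂ} (hu : u ∈ Gr) :
    u ∈ intRing (theField a b c) ∧ u⁻¹ ∈ intRing (theField a b c) := by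
  obtain ⟨n, rfl⟩ := hu
  constructor
  · exact pow_mem (eps_mem hai hbi hci) n
  · show (eps ^ n)⁻¹ ∈ intRing (theField a b c)
    rw [← inv_pow, eps_inv]
    exact pow_mem (epsI_mem hai hbi hci) n

lemma mkCP_integral {u v : ℂ} (hu : u ∈ Gr) (hv : v ∈ Gr) :
    IsIntegralPoint (theField a b c)
      ((mkCP a b c ha1 hb1 hc1 h01 h02 h12).A u v, (mkCP a b c ha1 hb1 hc1 h01 h02 h12).B u v) := by
  have hai' := a_mem hai hbi hci
  have hbi' := b_mem hai hbi hci
  have hci' := c_mem hai hbi hci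
  have hu1 := Gr_mem hai hbi hci ha1 hb1 hc1 hu
  have hv1 := Gr_mem hai hbi hci ha1 hb1 hc1 hv
  have ai0 : (a 1)⁻¹ ∈ intRing (theField a b c) :=
    inv_mem_intRing (x := a 1) (y := a 0) (z := a 2) (by linear_combination ha1) (hai' 0) (hai' 2)
  have ai2 : (a 2)⁻¹ ∈ intRing (theField a b c) :=
    inv_mem_intRing (x := a 2) (y := a 0) (z := a 1) (by linear_combination ha1) (hai' 0) (hai' 1)
  have bi0 : (b 0)⁻¹ ∈ intRing (theField a b c) :=
    inv_mem_intRing (x := b 0) (y := b 1) (z := b 2) (by linear_combination hb1) (hbi' 1) (hbi' 2)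
  have bi1 : (b 1)⁻¹ ∈ intRing (theField a b c) :=
    inv_mem_intRing (x := b 1) (y := b 0) (z := b 2) (by linear_combination hb1) (hbi' 0) (hbi' 2)
  have ci0 : (c 0)⁻¹ ∈ intRing (theField a b c) :=
    inv_mem_intRing (x := c 0) (y := c 1) (z := c 2) (by linear_combination hc1) (hci' 1) (hci' 2)
  have ci1 : (c 1)⁻¹ ∈ intRing (theField a b c) :=
    inv_mem_intRing (x := c 1) (y := c 0) (z := c 2) (by linear_combination hc1) (hci' 0) (hci' 2)
  have hS := intRing (theField a b c)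
  have hh : a 2 * b 0 * c 0 ∈ intRing (theField a b c) :=
    Subring.mul_mem _ (Subring.mul_mem _ (hai' 2) (hbi' 0)) (hci' 0)
  have hh' : (a 2 * b 0 * c 0)⁻¹ ∈ intRing (theField a b c) := by
    rw [mul_inv, mul_inv]
    exact Subring.mul_mem _ (Subring.mul_mem _ ai2 bi0) ci0
  have hl' : (a 1 * b 1 * c 1)⁻¹⁻¹ ∈ intRing (theField a b c) := by
    rw [inv_inv]
    exact Subring.mul_mem _ (Subring.mul_mem _ (hai' 1) (hbi' 1)) (hci' 1)
  have hl : (a 1 * b 1 * c 1)⁻¹ ∈ intRing (theField a b c) := by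
    rw [mul_inv, mul_inv]
    exact Subring.mul_mem _ (Subring.mul_mem _ ai0 bi1) ci1
  obtain ⟨m1, m2⟩ := CP.mem_chart (mkCP a b c ha1 hb1 hc1 h01 h02 h12) (theField a b c)
    (hai' 0) (hai' 1) (hai' 2) (hbi' 0) (hbi' 1) (hbi' 2) hh hh' hl hl' hu1.1 hu1.2 hv1.1 hv1.2
  exact isIntegralPoint_of_mem _ _ _ m1 m2

end final

/-- The main density theorem. -/
theorem density_main (a b c : Fin 3 → ℂ)
    (hai : ∀ i, IsIntegral ℤ (a i)) (hbi : ∀ i, IsIntegral ℤ (b i)) (hci : ∀ i, IsIntegral ℤ (c i))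
    (ha1 : a 0 * a 1 * a 2 = 1) (hb1 : b 0 * b 1 * b 2 = 1) (hc1 : c 0 * c 1 * c 2 = 1)
    (hainj : Function.Injective a) (hbinj : Function.Injective b) (hcinj : Function.Injective c) :
    ∃ L : IntermediateField ℚ ℂ, FiniteDimensional ℚ L ∧
      (∀ f : MvPolynomial Var ℂ, IsConjInvariant f →
        (∀ ρ ∈ relativeCharacterSet a b c, IsIntegralPoint L ρ →
          MvPolynomial.aeval (point ρ.1 ρ.2) f = 0) →
        ∀ ρ ∈ relativeCharacterSet a b c, MvPolynomial.aeval (point ρ.1 ρ.2) f = 0) ∧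
      (∀ P : ℂ[X][Y],
        (∀ ρ ∈ relativeCharacterSet a b c, IsIntegralPoint L ρ →
          P.evalEval ((ρ.1 * ρ.2⁻¹ : SL3) : Mat3).trace ((ρ.1⁻¹ * ρ.2 : SL3) : Mat3).trace = 0) →
        P = 0) := by
  have h01 : a 0 ≠ a 1 := fun h => absurd (hainj h) (by decide)
  have h02 : a 0 ≠ a 2 := fun h => absurd (hainj h) (by decide)
  have h12 : a 1 ≠ a 2 := fun h => absurd (hainj h) (by decide)
  have hb01 : b 0 ≠ b 1 := fun h => absurd (hbinj h) (by decide)
  have hb02 : b 0 ≠ b 2 := fun h => absurd (hbinj h) (by decide)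
  have hb12 : b 1 ≠ b 2 := fun h => absurd (hbinj h) (by decide)
  have hc01 : c 0 ≠ c 1 := fun h => absurd (hcinj h) (by decide)
  have hc02 : c 0 ≠ c 2 := fun h => absurd (hcinj h) (by decide)
  have hc12 : c 1 ≠ c 2 := fun h => absurd (hcinj h) (by decide)
  have hpoint : ∀ u ∈ Gr, ∀ v ∈ Gr,
      qc (((mkCP a b c ha1 hb1 hc1 h01 h02 h12).Bt u v : SL3) : Mat3) ≠ 0 →
      ((mkCP a b c ha1 hb1 hc1 h01 h02 h12).A u v, (mkCP a b c ha1 hb1 hc1 h01 h02 h12).B u v) ∈
        relativeCharacterSet a b c ∧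
      IsIntegralPoint (theField a b c)
        ((mkCP a b c ha1 hb1 hc1 h01 h02 h12).A u v, (mkCP a b c ha1 hb1 hc1 h01 h02 h12).B u v) := by
    intro u hu v hv hq
    exact ⟨chart_mem ha1 hb1 hc1 h01 h02 h12 hb01 hb02 hb12 hc01 hc02 hc12 u v (Gr_ne hu)
      (Gr_ne hv) hq, mkCP_integral hai hbi hci ha1 hb1 hc1 h01 h02 h12 hu hv⟩
  refine ⟨theField a b c, finiteDimensional_theField hai hbi hci, ?_, ?_⟩
  · intro f hf hvan ρ hρ
    have hcore := CP.core (mkCP a b c ha1 hb1 hc1 h01 h02 h12) f hf Gr Gr Gr_infinite Gr_infinite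
      (fun _ h => Gr_ne h) (fun _ h => Gr_ne h) (by
      intro u hu v hv
      by_cases hq : qc (((mkCP a b c ha1 hb1 hc1 h01 h02 h12).Bt u v : SL3) : Mat3) = 0
      · exact Or.inr hq
      · left
        obtain ⟨h1, h2⟩ := hpoint u hu v hv hq
        have h4 := hvan _ h1 h2
        simp only at h4
        exact h4)
    obtain ⟨G, hG1, hG2⟩ := Y_slice ha1 hb1 hc1 h01 h02 h12 ρ hρ
    have h3 := hcore _ hG2
    rw [← hf ρ.1 ρ.2 G, hG1]
    exact h3
  · intro P hP
    apply CP.indep (mkCP a b c ha1 hb1 hc1 h01 h02 h12)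
    have hL1 := (CP.L_x (mkCP a b c ha1 hb1 hc1 h01 h02 h12)).evalEval
      (CP.L_y (mkCP a b c ha1 hb1 hc1 h01 h02 h12)) P
    rcases IsLaurent.eq_zero_or_of_mul hL1 (CP.L_qc (mkCP a b c ha1 hb1 hc1 h01 h02 h12))
      Gr Gr Gr_infinite Gr_infinite (fun _ h => Gr_ne h) (fun _ h => Gr_ne h) (by
      intro u hu v hv
      by_cases hq : qc (((mkCP a b c ha1 hb1 hc1 h01 h02 h12).Bt u v : SL3) : Mat3) = 0
      · exact Or.inr hq
      · left
        obtain ⟨h1, h2⟩ := hpoint u hu v hv hq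
        have h3 := hP _ h1 h2
        rw [CP.xCoord_Bt, CP.yCoord_Bt]
        simp only [Matrix.SpecialLinearGroup.coe_mul, Matrix.SpecialLinearGroup.coe_inv] at h3
        exact h3) with h | h
    · exact h
    · exact absurd h (CP.exists_qc_ne_zero _)

end Vale.Agent.Lib.P002
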